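import Vale.Agent.P139.A2.Dh

/-! P139 A2/Ap: discretisation is asymptotically multiplicative. -/

noncomputable section

open MeasureTheory Filter Topology Set Complex
open scoped ComplexConjugate RealInnerProductSpace

namespace Vale.Agent.P139

variable {m : ℕ} {Q : Prof m} (H : Hat Q)

/-- asymptotic equality -/
def Ap (g : AA) (f : ℝ → TA) : Prop :=
  Tendsto (fun h => nm h (Dh h g - f h)) (𝓝[>] 0) (𝓝 0)

theorem Ap.of_le {g : AA} {f : ℝ → TA} {u : ℝ → ℝ} (hu : Tendsto u (𝓝[>] 0) (𝓝 0))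
    (h : ∀ h ∈ Ioc (0 : ℝ) 1, nm h (Dh h g - f h) ≤ u h) : Ap g f :=
  squeeze_zero' (Eventually.of_forall fun _ => nm_nonneg _ _)
    (mem_of_superset (Ioc_mem_nhdsGT one_pos) h) hu

theorem Ap.refl (g : AA) : Ap g fun h => Dh h g :=
  Ap.of_le tendsto_const_nhds fun h _ => by rw [sub_self, nm_zero]

theorem Ap.conv {g g' : AA} {f f' : ℝ → TA} (h : Ap g f) (h' : Ap g' f') :
    Ap (conv g g') fun h => f h * f' h := by
  have := ((disc_conv g g').add (((h.mul_const (2 ^ 60 * ‖g'‖)).const_mul (2 ^ 20)).add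
    ((h'.const_mul (2 ^ 60 * ‖g‖)).const_mul (2 ^ 20)))).add ((h.mul h').const_mul (2 ^ 20))
  simp only [zero_mul, mul_zero, add_zero] at this
  refine Ap.of_le this fun t ht => ?_
  have e : Dh t (P139.conv g g') - f t * f' t = Dh t (P139.conv g g') - Dh t g * Dh t g' +
      ((Dh t g - f t) * Dh t g' + Dh t g * (Dh t g' - f' t)) -
        (Dh t g - f t) * (Dh t g' - f' t) := by ring
  rw [e]
  refine (nm_sub_le ht.1.le ht.2 _ _).trans (add_le_add ((nm_add_le ht.1.le ht.2 _ _).trans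
    (add_le_add (le_of_eq ?_) ((nm_add_le ht.1.le ht.2 _ _).trans (add_le_add ?_ ?_))))
      (nm_mul_le ht.1.le ht.2 _ _))
  · rw [nm, co_sub, co_mul, co_Dh ht.1, co_Dh ht.1, co_Dh ht.1]
  · exact (nm_mul_le ht.1.le ht.2 _ _).trans (mul_le_mul_of_nonneg_left
      (mul_le_mul_of_nonneg_left (nm_Dh ht _) (nm_nonneg _ _)) (by positivity))
  · exact (nm_mul_le ht.1.le ht.2 _ _).trans (mul_le_mul_of_nonneg_left
      (mul_le_mul_of_nonneg_right (nm_Dh ht _) (nm_nonneg _ _)) (by positivity))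

theorem Ap.cj {g : AA} {f : ℝ → TA} (h : Ap g f) : Ap (cj g) fun h => sT (f h) :=
  Ap.of_le h fun t ht => by rw [Dh_cj ht.1, ← map_sub, nm_sT]

theorem Ap.smul {g : AA} {f : ℝ → TA} (h : Ap g f) (a : ℂ) : Ap (a • g) fun h => a • f h :=
  Ap.of_le (by simpa using h.const_mul ‖a‖) fun t _ => by rw [map_smul, ← smul_sub, nm_smul]

theorem Ap.add {g g' : AA} {f f' : ℝ → TA} (h : Ap g f) (h' : Ap g' f') :
    Ap (g + g') fun h => f h + f' h :=
  Ap.of_le (by simpa using Tendsto.add h h') fun t ht => by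
    rw [map_add, add_sub_add_comm]
    exact nm_add_le ht.1.le ht.2 _ _

theorem Ap.le {g : AA} {f : ℝ → TA} (h : Ap g f) {δ : ℝ} (hδ : 0 < δ) :
    ∃ h0 ∈ Ioc (0 : ℝ) 1, ∀ h ∈ Ioc 0 h0, nm h (Dh h g - f h) ≤ δ := by
  obtain ⟨u, hu, h1⟩ := mem_nhdsGT_iff_exists_Ioc_subset.1 (h.eventually (eventually_le_nhds hδ))
  exact ⟨min u 1, ⟨lt_min hu one_pos, min_le_right _ _⟩, fun t ht =>
    h1 ⟨ht.1, ht.2.trans (min_le_left _ _)⟩⟩

theorem a2_ap_nl (m : ℕ) (g : AA) : Ap (nlA m g) fun h => NL m (Dh h g) := by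
  induction m with
  | zero => simpa [nlA, NL] using Ap.refl g
  | succ m ih =>
    simpa only [nlA, NL, pow_succ', mul_assoc] using ((Ap.refl g).conv (Ap.refl g).cj).conv ih

theorem a2_ex_pow (g g0 : AA) {f : ℝ → TA} (h : Ap g0 f) (k : ℕ) : ∃ p : AA,
    (∀ y, ev p y = (normSq (ev g y) : ℂ) ^ k * ev g0 y) ∧
      Ap p fun h => (Dh h g * sT (Dh h g)) ^ k * f h := by
  induction k with
  | zero => exact ⟨g0, by simp, by simpa using h⟩
  | succ k ih =>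
    obtain ⟨p, h1, h2⟩ := ih
    refine ⟨conv (conv g (cj g)) p, fun y => ?_, ?_⟩
    · rw [ev_conv, ev_conv, ev_cj, mul_conj, h1, pow_succ', mul_assoc]
    · simpa only [pow_succ', mul_assoc] using ((Ap.refl g).conv (Ap.refl g).cj).conv h2

theorem a2_ev_smul (a : ℂ) (g : AA) (y : E12) : ev (a • g) y = a * ev g y := by
  obtain ⟨T, hT⟩ := ex_evL y
  rw [← hT, ← hT, map_smul, smul_eq_mul]

theorem Hat.a2_dh_lin {δ : ℝ} (hδ : 0 < δ) : ∃ h0 ∈ Ioc (0 : ℝ) 1, ∀ h ∈ Ioc 0 h0, ∀ w : TA,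
    nm h (-I • NL' m (Dh h H.q) w - H.Bd h w) ≤ δ * nm h w := by
  obtain ⟨p1, e1, a1⟩ := a2_ex_pow H.q _ ((Ap.refl H.q).conv (Ap.refl H.q).cj) (m - 1)
  obtain ⟨p2, e2, a2⟩ := a2_ex_pow H.q _ ((Ap.refl H.q).conv (Ap.refl H.q)) (m - 1)
  have hm : m - 1 + 1 = m := Nat.sub_add_cancel Q.m_pos
  have v1 : ((m : ℂ) + 1) • p1 = H.V1 := ev_inj fun y => by
    rw [a2_ev_smul, e1, ev_conv, ev_cj, mul_conj, ← pow_succ, hm, H.ev_V1, H.ev_q, Prof.V1, Prof.P,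
      ofReal_pow]
  have v2 : (m : ℂ) • p2 = H.V2 := ev_inj fun y => by
    rw [a2_ev_smul, e2, ev_conv, H.ev_V2, H.ev_q, Prof.V2, mul_assoc, sq]
  have hd : 0 < δ / 2 ^ 21 := by positivity
  obtain ⟨h1, hh1, H1⟩ := (a1.smul ((m : ℂ) + 1)).le hd
  obtain ⟨h2, hh2, H2⟩ := (a2.smul (m : ℂ)).le hd
  refine ⟨min h1 h2, ⟨lt_min hh1.1 hh2.1, (min_le_left _ _).trans hh1.2⟩, fun h hh w => ?_⟩
  have m0 : h ∈ Ioc (0 : ℝ) 1 := ⟨hh.1, (hh.2.trans (min_le_left _ _)).trans hh1.2⟩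
  have b1 := H1 h ⟨hh.1, hh.2.trans (min_le_left _ _)⟩
  have b2 := H2 h ⟨hh.1, hh.2.trans (min_le_right _ _)⟩
  rw [v1, ← pow_succ, hm] at b1
  rw [v2, ← sq] at b2
  have hw := nm_nonneg h w
  have b3 := (nm_mul_le m0.1.le m0.2 _ w).trans (mul_le_mul_of_nonneg_left
    (mul_le_mul_of_nonneg_right b1 hw) (by positivity))
  have b4 := (nm_mul_le m0.1.le m0.2 _ (sT w)).trans (mul_le_mul_of_nonneg_left
    (mul_le_mul_of_nonneg_right b2 (nm_nonneg _ _)) (by positivity))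
  rw [nm_sT] at b4
  have := (nm_add_le m0.1.le m0.2 _ _).trans (add_le_add b3 b4)
  rw [sub_mul, sub_mul, smul_mul_assoc, smul_mul_assoc, sub_add_sub_comm] at this
  rw [Hat.Bd, ← smul_sub, nm_smul, norm_neg, norm_I, one_mul, nm_sub_comm, NL']
  linarith

end Vale.Agent.P139
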