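import Vale.Agent.P139.A2.TA

/-! P139 A2/Gron: Gronwall and bootstrap for real functions.
Plan. `a2_gron`: `A = max over [0, N] of e^(-2 K s) g s` would give a factor 2; for the exact form put
`Φ s = a + K ∫ g`, `Φ' = K g ≤ K Φ`, so `e^(-K s) Φ` is antitone (or `le_gronwallBound_of_liminf_deriv_right_le`).
`a2_bootR`: `IsClosed.Icc_subset_of_forall_mem_nhdsWithin` (or the infimum of `{s | 1 < g s}`) for the set of `s` with
`g ≤ a e^(K σ)` on `[0, s]`: continuity gives `g ≤ 1` a little further, then `a2_gron` on the longer interval. -/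

noncomputable section

open MeasureTheory Filter Topology Set Complex
open scoped ComplexConjugate RealInnerProductSpace

namespace Vale.Agent.P139

theorem a2_gron {g : ℝ → ℝ} {N a K : ℝ} (hK : 0 ≤ K) (hg : ContinuousOn g (Icc 0 N))
    (h : ∀ s ∈ Icc 0 N, g s ≤ a + K * ∫ σ in (0 : ℝ)..s, g σ) :
    ∀ s ∈ Icc 0 N, g s ≤ a * Real.exp (K * s) := by
  intro s hs
  have hN : (0 : ℝ) ≤ N := hs.1.trans hs.2
  set G : ℝ → ℝ := fun σ => g (projIcc 0 N hN σ) with hG
  have Gc : Continuous G :=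
    hg.comp_continuous (continuous_subtype_val.comp continuous_projIcc) fun σ => (projIcc 0 N hN σ).2
  have GE : ∀ σ ∈ Icc 0 N, G σ = g σ := fun σ hσ => by simp only [hG, projIcc_of_mem hN hσ]
  have IE : ∀ t ∈ Icc 0 N, ∫ σ in (0 : ℝ)..t, G σ = ∫ σ in (0 : ℝ)..t, g σ := fun t ht =>
    intervalIntegral.integral_congr fun σ hσ => GE σ (by
      rw [uIcc_of_le ht.1] at hσ
      exact ⟨hσ.1, hσ.2.trans ht.2⟩)
  set Ψ : ℝ → ℝ := fun t => Real.exp (-(K * t)) * (a + K * ∫ σ in (0 : ℝ)..t, G σ) with hΨ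
  have D : ∀ t, HasDerivAt Ψ (Real.exp (-(K * t)) * (-K) * (a + K * ∫ σ in (0 : ℝ)..t, G σ) +
      Real.exp (-(K * t)) * (K * G t)) t := by
    intro t
    have d1 : HasDerivAt (fun t => Real.exp (-(K * t))) (Real.exp (-(K * t)) * (-K)) t := by
      simpa using ((hasDerivAt_id t).const_mul K).neg.exp
    have d2 := ((Gc.integral_hasStrictDerivAt 0 t).hasDerivAt.const_mul K).const_add a
    exact d1.mul d2
  have A : AntitoneOn Ψ (Icc 0 N) := by
    refine antitoneOn_of_deriv_nonpos (convex_Icc 0 N)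
      (fun t _ => (D t).continuousAt.continuousWithinAt)
      (fun t _ => (D t).differentiableAt.differentiableWithinAt) fun t ht => ?_
    have ht' : t ∈ Icc 0 N := interior_subset ht
    rw [(D t).deriv, IE t ht', GE t ht']
    have h1 := mul_le_mul_of_nonneg_left (h t ht') (mul_nonneg (Real.exp_pos (-(K * t))).le hK)
    linarith
  have h2 := A ⟨le_rfl, hN⟩ hs hs.1
  simp only [hΨ, mul_zero, neg_zero, Real.exp_zero, intervalIntegral.integral_same, add_zero,
    one_mul] at h2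
  rw [IE s hs] at h2
  have h3 := mul_le_mul_of_nonneg_left h2 (Real.exp_pos (K * s)).le
  rw [← mul_assoc, ← Real.exp_add, add_neg_cancel, Real.exp_zero, one_mul, mul_comm _ a] at h3
  exact (h s hs).trans h3

theorem a2_bootR {g : ℝ → ℝ} {N a K : ℝ} (ha : 0 ≤ a) (hK : 0 ≤ K) (hg : ContinuousOn g (Icc 0 N))
    (h : ∀ s ∈ Icc 0 N, (∀ σ ∈ Icc 0 s, g σ ≤ 1) → g s ≤ a + K * ∫ σ in (0 : ℝ)..s, g σ)
    (h0 : g 0 ≤ a) (h1 : a * Real.exp (K * N) < 1) :
    ∀ s ∈ Icc 0 N, g s ≤ a * Real.exp (K * N) := by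
  by_contra hc
  push Not at hc
  obtain ⟨s1, hs1, hlt⟩ := hc
  have hN : (0 : ℝ) ≤ N := hs1.1.trans hs1.2
  set b := a * Real.exp (K * N) with hb
  have hab : a ≤ b := le_mul_of_one_le_right ha (Real.one_le_exp (mul_nonneg hK hN))
  obtain ⟨c, hc1, hc2⟩ := exists_between (lt_min hlt h1)
  have hcl : IsClosed (Icc 0 N ∩ g ⁻¹' Ici c) := hg.preimage_isClosed_of_isClosed isClosed_Icc isClosed_Ici
  have hne : (Icc 0 N ∩ g ⁻¹' Ici c).Nonempty := ⟨s1, hs1, (hc2.trans_le (min_le_left _ _)).le⟩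
  obtain ⟨t, ht, hmin⟩ := (isCompact_Icc.of_isClosed_subset hcl inter_subset_left).exists_isLeast hne
  have hlt' : ∀ σ ∈ Ico 0 t, g σ < c := fun σ hσ => by
    by_contra hh
    exact absurd (hmin ⟨⟨hσ.1, hσ.2.le.trans ht.1.2⟩, not_lt.1 hh⟩) (not_le.2 hσ.2)
  have ht0 : 0 < t := by
    refine lt_of_le_of_ne ht.1.1 fun e => ?_
    have := ht.2
    rw [← e] at this
    exact absurd (le_trans this h0) (not_le.2 (hab.trans_lt hc1))
  have hsub : Icc 0 t ⊆ Icc 0 N := Icc_subset_Icc_right ht.1.2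
  have hle : ∀ σ ∈ Icc 0 t, g σ ≤ c := by
    have hcl2 : IsClosed (Icc 0 t ∩ g ⁻¹' Iic c) :=
      (hg.mono hsub).preimage_isClosed_of_isClosed isClosed_Icc isClosed_Iic
    have : closure (Ico 0 t) ⊆ Icc 0 t ∩ g ⁻¹' Iic c :=
      hcl2.closure_subset_iff.2 fun σ hσ => ⟨Ico_subset_Icc_self hσ, (hlt' σ hσ).le⟩
    rw [closure_Ico ht0.ne] at this
    exact fun σ hσ => (this hσ).2
  have hg2 := a2_gron hK (hg.mono hsub) (fun s hs => h s (hsub hs) fun σ hσ =>
    (hle σ ⟨hσ.1, hσ.2.trans hs.2⟩).trans (hc2.trans_le (min_le_right _ _)).le) t ⟨ht0.le, le_rfl⟩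
  have h3 : a * Real.exp (K * t) ≤ b := by
    rw [hb]
    gcongr
    exact ht.1.2
  exact absurd (le_trans ht.2 (hg2.trans h3)) (not_le.2 hc1)

end Vale.Agent.P139
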