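import Vale.Agent.P139.A2.Nm

/-! P139 A2/NL: estimates for the nonlinearity in the commutative ring `TA`. -/

noncomputable section

open MeasureTheory Filter Topology Set Complex
open scoped ComplexConjugate RealInnerProductSpace

namespace Vale.Agent.P139

/-- `f c w` is of order `j` in `w`. -/
def Ord (A : ℝ) (j : ℕ) (f : TA → TA → TA) : Prop :=
  ∃ K : ℝ, 0 ≤ K ∧ ∀ h ∈ Icc (0 : ℝ) 1, ∀ c w : TA, nm h c ≤ A → nm h w ≤ 1 →
    nm h (f c w) ≤ K * nm h w ^ j

variable {A : ℝ} {i j : ℕ} {f g : TA → TA → TA}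

theorem Ord.mul (hf : Ord A i f) (hg : Ord A j g) : Ord A (i + j) fun c w => f c w * g c w := by
  obtain ⟨K, hK, h1⟩ := hf
  obtain ⟨L, hL, h2⟩ := hg
  refine ⟨2 ^ 20 * (K * L), by positivity, fun h hh c w hc hw => ?_⟩
  refine (nm_mul_le hh.1 hh.2 _ _).trans ((mul_le_mul_of_nonneg_left (mul_le_mul (h1 h hh c w hc hw)
    (h2 h hh c w hc hw) (nm_nonneg _ _) ((nm_nonneg _ _).trans (h1 h hh c w hc hw)))
      (by positivity)).trans (le_of_eq ?_))
  ring

theorem Ord.add (hf : Ord A j f) (hg : Ord A j g) : Ord A j fun c w => f c w + g c w := by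
  obtain ⟨K, hK, h1⟩ := hf
  obtain ⟨L, hL, h2⟩ := hg
  refine ⟨K + L, by positivity, fun h hh c w hc hw => ?_⟩
  rw [add_mul]
  exact (nm_add_le hh.1 hh.2 _ _).trans (add_le_add (h1 h hh c w hc hw) (h2 h hh c w hc hw))

theorem Ord.mono (hf : Ord A (j + 1) f) : Ord A j f := by
  obtain ⟨K, hK, h1⟩ := hf
  refine ⟨K, hK, fun h hh c w hc hw => (h1 h hh c w hc hw).trans ?_⟩
  exact mul_le_mul_of_nonneg_left (pow_le_pow_of_le_one (nm_nonneg _ _) hw j.le_succ) hK

theorem Ord.sT (hf : Ord A j f) : Ord A j fun c w => sT (f c w) := by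
  simpa only [Ord, nm_sT] using hf

theorem ord_c (A : ℝ) : Ord A 0 fun c _ => c :=
  ⟨|A|, abs_nonneg A, fun _ _ _ _ hc _ => by simpa using hc.trans (le_abs_self A)⟩

theorem ord_w (A : ℝ) : Ord A 1 fun _ w => w := ⟨1, zero_le_one, fun _ _ _ _ _ _ => by simp⟩

theorem NL_succ (m : ℕ) (x : TA) : NL (m + 1) x = x * sT x * NL m x := by
  rw [NL, NL, pow_succ', mul_assoc]

theorem Ord.NL (hf : Ord A 0 f) (m : ℕ) : Ord A 0 fun c w => NL m (f c w) := by
  induction m with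
  | zero => simpa [P139.NL] using hf
  | succ m ih => simpa only [NL_succ] using (hf.mul hf.sT).mul ih

theorem ord_lip (m : ℕ) (A : ℝ) : Ord A 1 fun c w => NL m (c + w) - NL m c := by
  have c := ord_c A
  have w := ord_w A
  induction m with
  | zero => simpa [NL] using w
  | succ m ih =>
    convert ((c.mul c.sT).mul ih).add ((((w.mul c.sT).add (c.mul w.sT)).add
      (w.mul w.sT).mono).mul ((c.add w.mono).NL m)) using 3
    rw [NL_succ, NL_succ, map_add]
    ring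

theorem NL'_succ (m : ℕ) (c w : TA) :
    NL' (m + 1) c w = c * sT c * NL' m c w + (w * sT c + c * sT w) * NL m c := by
  cases m <;>
  · simp only [NL', NL, Algebra.smul_def, Nat.cast_add, Nat.cast_one, Nat.cast_zero, map_add,
      map_one, map_zero, Nat.add_sub_cancel]
    ring

theorem a2_NL_rem (m : ℕ) (A : ℝ) : ∃ K : ℝ, 0 ≤ K ∧ ∀ h ∈ Icc (0 : ℝ) 1, ∀ c w : TA, nm h c ≤ A →
    nm h w ≤ 1 → nm h (NL m (c + w) - NL m c - NL' m c w) ≤ K * nm h w ^ 2 := by
  have c := ord_c A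
  have w := ord_w A
  show Ord A 2 fun c w => NL m (c + w) - NL m c - NL' m c w
  induction m with
  | zero => exact ⟨0, le_rfl, fun h _ c w _ _ => by simp [NL, NL', nm_zero]⟩
  | succ m ih =>
    convert (((c.mul c.sT).mul ih).add (((w.mul c.sT).add (c.mul w.sT)).mul (ord_lip m A))).add
      ((w.mul w.sT).mul ((c.add w.mono).NL m)) using 3
    rw [NL_succ, NL_succ, NL'_succ, map_add]
    ring

theorem a2_NL_lip (m : ℕ) (A : ℝ) : ∃ K : ℝ, 0 ≤ K ∧ ∀ h ∈ Icc (0 : ℝ) 1, ∀ c w : TA, nm h c ≤ A →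
    nm h w ≤ 1 → nm h (NL m (c + w) - NL m c) ≤ K * nm h w := by
  simpa only [Ord, pow_one] using ord_lip m A

theorem Mu_mul (x : E12) (u v : TA) : Mu (fun n => ⟪zE n, x⟫) (u * v) =
    Mu (fun n => ⟪zE n, x⟫) u * Mu (fun n => ⟪zE n, x⟫) v := by
  refine co_ext (funext fun n => ?_)
  simp only [co_Mu, co_mul, cv, ← tsum_mul_left]
  refine tsum_congr fun k => ?_
  rw [mul_mul_mul_comm, ← exp_add, a2_zE_sub, inner_sub_left]
  congr 2
  push_cast
  ring

theorem sT_Mu (x : E12) (u : TA) :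
    sT (Mu (fun n => ⟪zE n, x⟫) u) = Mu (fun n => ⟪zE n, x⟫) (sT u) := by
  refine co_ext (funext fun n => ?_)
  simp only [co_Mu, co_sT, st, map_mul, ← exp_conj, conj_I, conj_ofReal, a2_zE_neg, inner_neg_left,
    ofReal_neg, neg_mul_neg, map_neg]

theorem NL_Mu (m : ℕ) (ω : ℂ) (x : E12) (u : TA) : NL m (ω • Mu (fun n => ⟪zE n, x⟫) u) =
    (((‖ω‖ ^ (2 * m) : ℝ) : ℂ) * ω) • Mu (fun n => ⟪zE n, x⟫) (NL m u) := by
  induction m with
  | zero => simp [NL]
  | succ m ih =>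
    rw [NL_succ, NL_succ, ih, sT_smul, sT_Mu, Mu_mul, Mu_mul, smul_mul_smul_comm,
      smul_mul_smul_comm, mul_conj']
    congr 1
    push_cast
    ring

end Vale.Agent.P139
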