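import Vale.Agent.P139.A2.Stat
import Vale.Agent.P139.A2.NL
import Vale.Agent.P139.A2.Gron

/-! P139 A2/Boot: a priori bound on one time step. -/

noncomputable section

open MeasureTheory Filter Topology Set Complex
open scoped ComplexConjugate RealInnerProductSpace

namespace Vale.Agent.P139

variable {m : ℕ} {Q : Prof m} (H : Hat Q)

theorem Hat.a2_boot {N : ℝ} (_hN : 0 ≤ N) : ∃ G ε1 : ℝ, 0 < ε1 ∧ 0 ≤ G ∧ G * ε1 ≤ 1 ∧
    ∀ ε ∈ Ioc 0 ε1, ∃ h0 ∈ Ioc (0 : ℝ) 1, ∀ h ∈ Ioc 0 h0, ∀ V, H.Sol h N V →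
      nm h (V 0 - Dh h H.q) ≤ ε → ∀ s ∈ Icc 0 N, nm (hs h s) (V s - Dh (hs h s) H.q) ≤ G * ε := by
  obtain ⟨K, hK, hlip⟩ := a2_NL_lip m (2 ^ 60 * ‖H.q‖)
  have hE := Real.exp_pos (K * N)
  have e1 : 2 * Real.exp (K * N) * (1 / (4 * Real.exp (K * N))) = 1 / 2 := by
    field_simp
    norm_num
  refine ⟨2 * Real.exp (K * N), 1 / (4 * Real.exp (K * N)), by positivity, by positivity,
    by linarith, fun ε hε => ?_⟩
  obtain ⟨h0, hh0, H0⟩ := H.a2_stat N hε.1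
  refine ⟨h0, hh0, fun h hh V hV hV0 s hs0 => ?_⟩
  have m0 : h ∈ Ioc (0 : ℝ) 1 := ⟨hh.1, hh.2.trans hh0.2⟩
  have hν := a2_nu_nonneg m Q.β
  have c0 : Continuous fun σ => Dh (hs h σ) H.q := continuous_Dh hh.1 continuous_const
  have c1 : Continuous fun σ => -I • NL m (V σ) := ((continuous_NL m).comp hV.1).const_smul (-I)
  have c2 : Continuous fun σ => -I • NL m (Dh (hs h σ) H.q) :=
    ((continuous_NL m).comp c0).const_smul (-I)
  have cg : ContinuousOn (fun s => nm (hs h s) (V s - Dh (hs h s) H.q)) (Ici 0) :=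
    continuousOn_nm m0.1.le m0.2 (hV.1.sub c0)
  have := a2_bootR (a := ε + ε) (K := K) (N := N) (by linarith [hε.1]) hK
    (cg.mono Icc_subset_Ici_self) (fun s hs0 hb => ?_) (by rw [hs_zero]; linarith [hε.1])
    (by nlinarith [mul_le_mul_of_nonneg_left hε.2 hE.le]) s hs0
  · linarith
  have ms := hs_mem m0 hs0.1
  have b1 := nm_Eo hν m0.1.le m0.2 le_rfl hs0.1 (V 0 - Dh h H.q)
  rw [hs_zero] at b1
  have b3 := nm_Duh (φ := fun σ => K * nm (hs h σ) (V σ - Dh (hs h σ) H.q)) hν m0.1.le m0.2 hs0.1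
    (c1.fun_sub c2) (continuousOn_const.mul (cg.mono Icc_subset_Ici_self)) fun σ hσ => by
      have mσ := hs_mem m0 hσ.1
      have := hlip _ ⟨mσ.1.le, mσ.2⟩ _ _ (nm_Dh mσ H.q) (hb σ hσ)
      rw [add_sub_cancel] at this
      rwa [← smul_sub, nm_smul, norm_neg, norm_I, one_mul]
  rw [intervalIntegral.integral_const_mul, Duh_sub c1 c2] at b3
  refine le_trans (le_of_eq ?_) ((nm_add_le ms.1.le ms.2 _ _).trans (add_le_add
    ((nm_sub_le ms.1.le ms.2 _ _).trans (add_le_add (b1.trans hV0) (H0 h hh s hs0))) b3))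
  rw [map_sub]
  nth_rewrite 1 [hV.2 s hs0]
  congr 1
  abel

end Vale.Agent.P139
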