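import Vale.Agent.P139.A2.Dh

/-! P139 A2/Dec: extraction of the symmetry modes and re-modulation. -/

noncomputable section

open MeasureTheory Filter Topology Set Complex
open scoped ComplexConjugate RealInnerProductSpace

namespace Vale.Agent.P139

variable {m : ℕ} {Q : Prof m} (H : Hat Q)

theorem Hat.mode_sum {ι : Type} (S : Finset ι) (c0 c1 : ι → ℝ) (x : ι → E12) :
    H.mode (∑ i ∈ S, c0 i) (∑ i ∈ S, c1 i) (∑ i ∈ S, x i) = ∑ i ∈ S, H.mode (c0 i) (c1 i) (x i) := by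
  simp only [Hat.mode, Finset.sum_add_distrib, Finset.sum_smul, WithLp.ofLp_sum, Finset.sum_apply]
  rw [Finset.sum_comm]

theorem Hat.a2_dec {N C ε' : ℝ} {Z : E12 → ℂ → ℝ → AA} (hL : H.Lin N C ε' Z) (hN : 0 ≤ N)
    (he : Real.exp (-aa m * N) ≤ ε') {h : ℝ} (h0 : h ∈ Ioc (0 : ℝ) 1) (w : TA) (S : Finset Z12) :
    ∃ (c0 c1 : ℝ) (x : E12), |c0| + |c1| + ‖x‖ ≤ |C| * nm h w ∧
      nm (hs h N) (∑ k ∈ S, H.pc Z h k (co w k) N - Dh (hs h N) (H.mode c0 c1 x)) ≤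
        2 ^ 61 * ε' * nm h w := by
  choose c0 c1 x hc hz using fun k => hL.dec (h • zE k) (co w k)
  have hS := nm_sum_co h0.1.le h0.2 w S
  have hε : 0 ≤ ε' := (Real.exp_pos _).le.trans he
  have mN := hs_mem h0 hN
  have hw := nm_nonneg h w
  refine ⟨∑ k ∈ S, c0 k, ∑ k ∈ S, c1 k, ∑ k ∈ S, x k, ?_, ?_⟩
  · refine (add_le_add (add_le_add (Finset.abs_sum_le_sum_abs _ _) (Finset.abs_sum_le_sum_abs _ _))
      (norm_sum_le _ _)).trans ?_
    rw [← Finset.sum_add_distrib, ← Finset.sum_add_distrib]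
    refine le_trans ?_ (mul_le_mul_of_nonneg_left hS (abs_nonneg C))
    rw [Finset.mul_sum]
    exact Finset.sum_le_sum fun k _ => (hc k).trans (mul_le_mul_of_nonneg_right (le_abs_self C)
      (mul_nonneg (norm_nonneg _) (a2_Wt_pos _).le))
  · have e : ∑ k ∈ S, H.pc Z h k (co w k) N -
        Dh (hs h N) (H.mode (∑ k ∈ S, c0 k) (∑ k ∈ S, c1 k) (∑ k ∈ S, x k)) =
        Eo (nu0 m Q.β) h N 0 (∑ k ∈ S, sgl k (co w k)) +
          ∑ k ∈ S, Dh (hs h N) (Z (h • zE k) (co w k) N - H.mode (c0 k) (c1 k) (x k)) := by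
      simp only [H.mode_sum, map_sum, map_sub, Hat.pc, Finset.sum_add_distrib,
        Finset.sum_sub_distrib, add_sub_assoc]
    rw [e]
    have b1 := nm_Eo0 (ν := nu0 m Q.β) h0.1.le h0.2 hN (∑ k ∈ S, sgl k (co w k))
    rw [a2_nu_re] at b1
    have b2 := b1.trans (mul_le_mul he (nm_trunc h0.1.le h0.2 w S) (nm_nonneg _ _) hε)
    have b3 : nm (hs h N) (∑ k ∈ S, Dh (hs h N) (Z (h • zE k) (co w k) N -
        H.mode (c0 k) (c1 k) (x k))) ≤ 2 ^ 60 * (ε' * nm h w) := by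
      refine (nm_sum_le mN.1.le mN.2 _ _).trans ((Finset.sum_le_sum fun k _ => (nm_Dh mN _).trans
        (mul_le_mul_of_nonneg_left (hz k) (by positivity))).trans ?_)
      rw [← Finset.mul_sum, ← Finset.mul_sum]
      gcongr
    refine ((nm_add_le mN.1.le mN.2 _ _).trans (add_le_add b2 b3)).trans ?_
    nlinarith [mul_nonneg hε hw]

theorem Hat.a2_remod {δ1 : ℝ} (hδ1 : 0 < δ1) : ∃ r ∈ Ioc (0 : ℝ) (1 / 2), ∀ δ > 0,
    ∃ h0 ∈ Ioc (0 : ℝ) 1, ∀ h ∈ Ioc 0 h0, ∀ (c0 c1 : ℝ) (x : E12), |c0| + |c1| + ‖x‖ ≤ r →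
      ∀ (v : TA) (b : ℝ), nm h (v - Dh h H.q - Dh h (H.mode c0 c1 x)) ≤ b →
        nm (hs h c1) (exp (-(I * c0 + nu0 m Q.β * c1)) • Mu (fun n => -(hs h c1 * ⟪zE n, x⟫)) v -
          Dh (hs h c1) H.q) ≤ 2 ^ 10 * (b + δ1 * (|c0| + |c1| + ‖x‖) + δ) := by
  obtain ⟨r, hr, hG⟩ := H.Gp_deriv (δ := δ1 / 2 ^ 60) (by positivity)
  refine ⟨min r (1 / 2), ⟨by positivity, min_le_right _ _⟩, fun δ hδ => ?_⟩
  obtain ⟨h1, hh1, H1⟩ := disc_Gp (nu0 m Q.β) H.q hδ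
  refine ⟨min (h1 / 2) (1 / 2), ⟨by positivity, (min_le_right _ _).trans (by norm_num)⟩, ?_⟩
  intro h hh c0 c1 x hc v b hb
  have k1 := hh.2.trans (min_le_left _ _)
  have k2 := hh.2.trans (min_le_right _ _)
  have k3 := hc.trans (min_le_right _ _)
  have k4 := abs_nonneg c0
  have k5 := norm_nonneg x
  have k6 := abs_nonneg c1
  have k7 := neg_abs_le c1
  have m0 : h ∈ Ioc (0 : ℝ) 1 := ⟨hh.1, by linarith⟩
  have e4 : Real.exp (1 / 4) ≤ 4 / 3 :=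
    (Real.exp_bound_div_one_sub_of_interval (by norm_num) (by norm_num)).trans (by norm_num)
  have hp := hs_pos hh.1 c1
  have hl : hs h c1 ≤ 4 / 3 * h := by
    rw [hs, mul_comm]
    exact mul_le_mul_of_nonneg_right ((Real.exp_le_exp.2 (by linarith)).trans e4) hh.1.le
  have eh : hs h c1 * Real.exp (c1 / 2) = h := by
    rw [hs, mul_assoc, ← Real.exp_add, neg_div, neg_add_cancel, Real.exp_zero, mul_one]
  have d1 := H1 (hs h c1) ⟨hp, by linarith [hh.1]⟩ c0 c1 x (by linarith) (by linarith)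
  rw [eh] at d1
  set A := exp (I * c0 + nu0 m Q.β * c1) • Mu (fun n => hs h c1 * ⟪zE n, x⟫) (Dh (hs h c1) H.q)
    with hA
  have d2 : nm h (Dh h (Gp (nu0 m Q.β) c0 c1 x H.q) - A) ≤ δ := by
    refine le_trans (le_of_eq ?_) d1
    rw [nm, co_sub, co_Dh hh.1]
    congr 2
    funext n
    rw [hA, co_smul, Pi.smul_apply, co_Mu, co_Dh hp, smul_eq_mul, ← mul_assoc, ← exp_add]
  have d3 := (nm_Dh m0 _).trans (mul_le_mul_of_nonneg_left
    (hG c0 c1 x (hc.trans (min_le_left _ _))) (by positivity))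
  have d4 := (nm_add_le m0.1.le m0.2 _ _).trans (add_le_add
    ((nm_sub_le m0.1.le m0.2 _ _).trans (add_le_add hb d3)) d2)
  have e1 : v - Dh h H.q - Dh h (H.mode c0 c1 x) -
      Dh h (Gp (nu0 m Q.β) c0 c1 x H.q - H.q - H.mode c0 c1 x) +
      (Dh h (Gp (nu0 m Q.β) c0 c1 x H.q) - A) = v - A := by
    rw [map_sub, map_sub]
    abel
  have e2 : exp (-(I * c0 + nu0 m Q.β * c1)) • Mu (fun n => -(hs h c1 * ⟪zE n, x⟫)) v -
      Dh (hs h c1) H.q =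
      exp (-(I * c0 + nu0 m Q.β * c1)) • Mu (fun n => -(hs h c1 * ⟪zE n, x⟫)) (v - A) := by
    rw [map_sub, smul_sub, hA, map_smul, Mu_Mu, smul_smul, ← exp_add]
    simp only [neg_add_cancel, Mu_zero, exp_zero, one_smul]
  rw [e1] at d4
  have d5 : ‖exp (-(I * c0 + nu0 m Q.β * c1))‖ ≤ 4 / 3 := by
    rw [norm_exp]
    refine (Real.exp_le_exp.2 ?_).trans e4
    have a1 := a2_aa_pos Q.m_pos
    have a2 := a2_aa_le Q.m_pos
    simp only [neg_re, add_re, mul_re, I_re, I_im, ofReal_re, ofReal_im, a2_nu_re]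
    nlinarith
  have d6 := (nm_mono hp.le hl (by linarith) (v - A)).trans
    (nm_scale m0.1.le m0.2 (by norm_num : (1 : ℝ) ≤ 4 / 3) (v - A))
  rw [e2, nm_smul, nm_Mu]
  refine (mul_le_mul d5 d6 (nm_nonneg _ _) (by norm_num)).trans ?_
  have := nm_nonneg h (v - A)
  linarith

end Vale.Agent.P139
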