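import Vale.Agent.P139.A2.Duh

/-! P139 A2/Dh: the discretisation `Dh h` and the discrete potential `Bd`. -/

noncomputable section

open MeasureTheory Filter Topology Set Complex
open scoped ComplexConjugate RealInnerProductSpace Pointwise

namespace Vale.Agent.P139

variable {m : ℕ} {Q : Prof m} (H : Hat Q)

theorem a2_smul_cell {t : ℝ} (ht : 0 < t) (h : ℝ) (n : Z12) : t • cell h n = cell (h * t) n := by
  ext ξ
  rw [mem_smul_set_iff_inv_smul_mem₀ ht.ne']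
  simp only [cell, mem_ofPred_eq, PiLp.smul_apply, smul_eq_mul, ← div_eq_inv_mul, le_div_iff₀ ht,
    div_lt_iff₀ ht, mul_right_comm h t]

theorem a2_disc_dil {h : ℝ} (_h0 : 0 < h) (σ : ℝ) (g : AA) :
    disc h (Gp 0 0 σ 0 g) = disc (hs h σ) g := by
  funext n
  have ht := Real.exp_pos (-σ / 2)
  rw [disc, integral_congr_ae (ae_restrict_of_ae (Gp_ae 0 0 σ 0 g))]
  simp only [inner_zero_right, ofReal_zero, mul_zero, zero_mul, add_zero, zero_sub]
  rw [integral_const_mul, Measure.setIntegral_comp_smul_of_pos volume g _ ht, a2_smul_cell ht,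
    finrank_euclideanSpace_fin, ← Real.exp_nat_mul, ← Real.exp_neg, real_smul, ofReal_exp,
    ← mul_assoc, ← exp_add, disc, hs]
  rw [show -(6 * (σ : ℂ)) + ((-((12 : ℕ) * (-σ / 2)) : ℝ) : ℂ) = 0 by push_cast; ring, exp_zero,
    one_mul]

theorem co_Dh {h : ℝ} (h0 : 0 < h) (g : AA) : co (Dh h g) = disc h g := by
  rw [Dh, ContinuousLinearMap.comp_apply, co_D1, a2_disc_dil one_pos, hs, one_mul,
    show -(-2 * Real.log h) / 2 = Real.log h by ring, Real.exp_log h0]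

theorem Dh_hs {h : ℝ} (h0 : 0 < h) (σ : ℝ) (g : AA) :
    Dh (hs h σ) g = Dh h (Gp 0 0 σ 0 g) :=
  co_ext (by rw [co_Dh h0, co_Dh (hs_pos h0 σ), a2_disc_dil h0])

theorem nm_Dh {h : ℝ} (h0 : h ∈ Ioc (0 : ℝ) 1) (g : AA) : nm h (Dh h g) ≤ 2 ^ 60 * ‖g‖ := by
  rw [nm, co_Dh h0.1]
  exact disc_wn h0.1 h0.2 g

theorem continuous_Dh {h : ℝ} (h0 : 0 < h) {g : ℝ → AA} (hg : Continuous g) :
    Continuous fun s => Dh (hs h s) (g s) := by
  have h1 : Continuous fun σ : ℝ => ((0 : ℝ), σ, (0 : E12), g σ) := by fun_prop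
  have h2 : Continuous fun σ : ℝ => Gp 0 0 σ 0 (g σ) := by
    simpa only [Function.comp_def] using (continuous_Gp 0).comp h1
  simp only [Dh_hs h0]
  exact (Dh h).continuous.comp h2

theorem Dh_cj {h : ℝ} (h0 : 0 < h) (g : AA) : Dh h (cj g) = sT (Dh h g) :=
  co_ext (by rw [co_sT, co_Dh h0, co_Dh h0, disc_cj h0])

theorem Dh_rsmul (h t : ℝ) (g : AA) : Dh h (t • g) = t • Dh h g :=
  (Dh h).map_smul_of_tower t g

theorem Hat.Dh_b {h : ℝ} (h0 : 0 < h) (k : Z12) (κ : ℂ) :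
    Dh h (H.b (h • zE k) κ) = H.Bd h (sgl k κ) := by
  have e : ∀ (k : Z12) (κ : ℂ) (g : AA), Dh h (κ • tr (h • zE k) g) = Dh h g * sgl k κ := by
    intro k κ g
    refine co_ext (funext fun n => ?_)
    rw [map_smul, co_smul, co_mul_sgl, co_Dh h0, co_Dh h0, Pi.smul_apply, disc_tr h0, smul_eq_mul]
  rw [Hat.b, Hat.Bd, map_smul, map_add, ← smul_neg, ← a2_zE_neg, e, e, sT_sgl]

theorem Hat.Eo_sgl (h : ℝ) (k : Z12) (κ : ℂ) (σ : ℝ) :
    Eo (nu0 m Q.β) h σ 0 (sgl k κ) = sgl k (Hat.amp (Q := Q) (h • zE k) κ σ) := by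
  rw [Eo, _root_.smul_apply, Mu_sgl, ← sgl_mul, ← mul_assoc, ← exp_add, Hat.amp,
    mul_comm κ, norm_smul, mul_pow, a2_norm_zE, Real.norm_eq_abs, sq_abs]
  congr 3
  simp only [neg_zero, Real.exp_zero]
  push_cast
  ring

/-- The bound of the discrete potential term. -/
def Hat.CB : ℝ := 2 ^ 80 * (‖H.V1‖ + ‖H.V2‖)

theorem Hat.CB_nonneg : 0 ≤ H.CB := by
  unfold Hat.CB
  positivity

theorem Hat.nm_Bd {h : ℝ} (h0 : h ∈ Ioc (0 : ℝ) 1) (x : TA) :
    nm h (H.Bd h x) ≤ H.CB * nm h x := by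
  have b : ∀ (g : AA) (y : TA), nm h (Dh h g * y) ≤ 2 ^ 20 * (2 ^ 60 * ‖g‖ * nm h y) := fun g y =>
    (nm_mul_le h0.1.le h0.2 _ _).trans (mul_le_mul_of_nonneg_left
      (mul_le_mul_of_nonneg_right (nm_Dh h0 g) (nm_nonneg _ _)) (by positivity))
  rw [Hat.Bd, nm_smul, norm_neg, norm_I, one_mul]
  refine ((nm_add_le h0.1.le h0.2 _ _).trans (add_le_add (b _ _) (b _ _))).trans (le_of_eq ?_)
  rw [nm_sT, Hat.CB]
  ring

theorem Hat.Bd_add (h : ℝ) (x y : TA) : H.Bd h (x + y) = H.Bd h x + H.Bd h y := by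
  simp only [Hat.Bd, map_add, mul_add, smul_add]
  abel

theorem Hat.Bd_sub (h : ℝ) (x y : TA) : H.Bd h (x - y) = H.Bd h x - H.Bd h y := by
  rw [eq_sub_iff_add_eq, ← H.Bd_add, sub_add_cancel]

theorem Hat.Bd_sum (h : ℝ) {ι : Type} (S : Finset ι) (f : ι → TA) :
    H.Bd h (∑ i ∈ S, f i) = ∑ i ∈ S, H.Bd h (f i) := by
  simp only [Hat.Bd, map_sum, Finset.mul_sum, ← Finset.sum_add_distrib, Finset.smul_sum]

theorem Hat.Bd_rsmul (h t : ℝ) (x : TA) : H.Bd h (t • x) = t • H.Bd h x := by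
  rw [Hat.Bd, Hat.Bd, map_smul, ← Complex.coe_smul, ← Complex.coe_smul, ← Complex.coe_smul,
    mul_smul_comm, mul_smul_comm, ← smul_add, smul_comm]

theorem Hat.continuous_Bd {h : ℝ} (h0 : 0 < h) {f : ℝ → TA} (hf : Continuous f) :
    Continuous fun s => H.Bd (hs h s) (f s) :=
  (((continuous_Dh h0 continuous_const).mul hf).add
    ((continuous_Dh h0 continuous_const).mul (sT.continuous.comp hf))).const_smul (-I)

theorem Hat.continuous_B : Continuous H.B :=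
  ((conv H.V1).continuous.add ((conv H.V2).continuous.comp cj.continuous)).const_smul (-I)

theorem Hat.continuous_pc {N C ε : ℝ} {Z : E12 → ℂ → ℝ → AA} (hL : H.Lin N C ε Z) {h : ℝ}
    (h0 : 0 < h) (k : Z12) (κ : ℂ) : Continuous (H.pc Z h k κ) := by
  have cz : Continuous fun σ => Z (h • zE k) κ σ := by
    have h0 : Continuous fun σ : ℝ => (h • zE k, κ, σ) := by fun_prop
    simpa only [Function.comp_def] using hL.cont.comp h0
  exact (continuous_Eo0 _ h _).add (continuous_Dh h0 cz)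

end Vale.Agent.P139
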