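import Vale.Agent.P139.A2.Nm

/-! P139 A2/Duh: the free flow `Eo` and the Duhamel integral `Duh`.
Plan. `continuous_Mu`: for fixed `x`, `‖Mu (θ p) x - Mu (θ p₀) x‖ = ∑' n, Wt ‖e^(iθ p n) - e^(iθ p₀ n)‖ ‖co x n‖` is
continuous in `p` (`continuous_tsum`, bound `2 Wt ‖co x n‖`) and vanishes at `p₀`; `Mu θ` is an isometry
(`norm_eq_nm`, `nm_Mu`), so `‖Mu (θ p) (f p) - Mu (θ p₀) (f p₀)‖ ≤ ‖f p - f p₀‖ + …`. `continuousOn_nm`: same with
`nm_le_norm`, `nm_add_le` and `continuousOn_tsum` for `s ↦ nm (hs h s) x`. `nm_integral`: for a finite set `S`,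
`∑ n ∈ S, Wt ‖co (∫ F) n‖ ≤ ∫ ∑ n ∈ S, Wt ‖co (F σ) n‖ ≤ ∫ φ` (`(coL n).intervalIntegral_comp_comm`,
`nm_sum_co`), then `Real.tsum_le_of_sum_le` / `Summable.tsum_le_of_sum_le`. -/

noncomputable section

open MeasureTheory Filter Topology Set Complex
open scoped ComplexConjugate RealInnerProductSpace

namespace Vale.Agent.P139

variable {h s σ : ℝ} {ν : ℂ}

theorem a2_aa_pos {m : ℕ} (hm : 1 ≤ m) : 0 < aa m := by
  have : (0 : ℝ) < m := by exact_mod_cast hm
  unfold aa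
  positivity

theorem a2_aa_le {m : ℕ} (hm : 1 ≤ m) : aa m ≤ 1 / 2 := by
  have : (1 : ℝ) ≤ m := by exact_mod_cast hm
  exact one_div_le_one_div_of_le two_pos (by linarith)

theorem a2_nu_re (m : ℕ) (β : ℝ) : (nu0 m β).re = aa m := by simp [nu0]

theorem a2_nu_nonneg (m : ℕ) (β : ℝ) : 0 ≤ (nu0 m β).re := by
  rw [a2_nu_re]
  unfold aa
  positivity

theorem hs_pos (h0 : 0 < h) (s : ℝ) : 0 < hs h s := mul_pos h0 (Real.exp_pos _)

theorem hs_nonneg (h0 : 0 ≤ h) (s : ℝ) : 0 ≤ hs h s := mul_nonneg h0 (Real.exp_pos _).le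

theorem hs_zero (h : ℝ) : hs h 0 = h := by simp [hs]

theorem hs_anti (h0 : 0 ≤ h) (hσ : σ ≤ s) : hs h s ≤ hs h σ :=
  mul_le_mul_of_nonneg_left (Real.exp_le_exp.2 (by linarith)) h0

theorem hs_le (h0 : 0 ≤ h) (h2 : 0 ≤ s) : hs h s ≤ h := (hs_anti h0 h2).trans_eq (hs_zero h)

theorem hs_mem {h1 : ℝ} (h0 : h ∈ Ioc 0 h1) (h2 : 0 ≤ s) : hs h s ∈ Ioc 0 h1 :=
  ⟨hs_pos h0.1 s, (hs_le h0.1.le h2).trans h0.2⟩

theorem hs_hs (h s σ : ℝ) : hs (hs h σ) (s - σ) = hs h s := by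
  rw [hs, hs, hs, mul_assoc, ← Real.exp_add]
  congr 2
  ring

theorem duh_cont {P X Y : Type} [TopologicalSpace P] [PseudoEMetricSpace X] [PseudoEMetricSpace Y]
    (G : P → X → Y) {t : Set P} (a1 : ∀ x, ContinuousOn (fun p => G p x) t)
    (a2 : ∀ p ∈ t, LipschitzWith 1 (G p)) {f : P → X} (hf : Continuous f) :
    ContinuousOn (fun p => G p (f p)) t :=
  (continuousOn_prod_of_continuousOn_lipschitzOnWith (s := univ) (fun q : X × P => G q.2 q.1) 1
    (fun x _ => a1 x) fun p hp => (a2 p hp).lipschitzOnWith).comp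
      (hf.prodMk continuous_id).continuousOn fun _ hp => ⟨trivial, hp⟩

theorem continuous_Mu {P : Type} [TopologicalSpace P] {θ : P → Z12 → ℝ}
    (hθ : ∀ n, Continuous fun p => θ p n) {f : P → TA} (hf : Continuous f) :
    Continuous fun p => Mu (θ p) (f p) := by
  have a1 : ∀ x : TA, Continuous fun p => Mu (θ p) x := fun x => by
    refine continuous_iff_continuousAt.2 fun p₀ => tendsto_iff_norm_sub_tendsto_zero.2 ?_
    have hc : Continuous fun p => ∑' n, Wt (zE n) *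
        ‖exp (I * θ p n) * co x n - exp (I * θ p₀ n) * co x n‖ := by
      refine continuous_tsum (fun n => ?_) ((co_SW x).mul_left 2) fun n p => ?_
      · have := hθ n
        fun_prop
      · rw [Real.norm_of_nonneg (mul_nonneg (a2_Wt_pos _).le (norm_nonneg _)), mul_left_comm]
        refine mul_le_mul_of_nonneg_left ((norm_sub_le _ _).trans_eq ?_) (a2_Wt_pos _).le
        simp only [norm_mul, mul_comm I, norm_exp_ofReal_mul_I, one_mul, two_mul]
    have h0 := hc.tendsto p₀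
    simp only [sub_self, norm_zero, mul_zero, tsum_zero] at h0
    simpa only [norm_eq_nm, nm, wn, one_smul, co_sub, Pi.sub_apply, co_Mu] using h0
  have a2 : ∀ p, LipschitzWith 1 fun x : TA => Mu (θ p) x := fun p =>
    LipschitzWith.of_dist_le_mul fun x y => by
      rw [dist_eq_norm, dist_eq_norm, ← map_sub, norm_eq_nm, norm_eq_nm, nm_Mu, NNReal.coe_one,
        one_mul]
  exact continuousOn_univ.1
    (duh_cont (fun p x => Mu (θ p) x) (fun x => (a1 x).continuousOn) (fun p _ => a2 p) hf)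

theorem co_Eo (ν : ℂ) (h s σ : ℝ) (x : TA) (n : Z12) : co (Eo ν h s σ x) n =
    exp (-ν * (s - σ) - I * ((Real.exp (-σ) - Real.exp (-s)) * h ^ 2 * nsq n : ℝ)) * co x n := by
  rw [Eo, smul_apply, co_smul, Pi.smul_apply, co_Mu, smul_eq_mul, ← mul_assoc, ← exp_add,
    ofReal_neg, mul_neg, ← sub_eq_add_neg]

theorem continuous_Eo (ν : ℂ) (h s : ℝ) {f : ℝ → TA} (hf : Continuous f) :
    Continuous fun σ => Eo ν h s σ (f σ) := by
  simp only [Eo, smul_apply]
  have a1 : Continuous fun σ : ℝ => exp (-ν * (s - σ)) := by fun_prop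
  exact a1.smul (continuous_Mu
    (θ := fun σ n => -((Real.exp (-σ) - Real.exp (-s)) * h ^ 2 * nsq n)) (fun n => by fun_prop) hf)

theorem continuous_Eo0 (ν : ℂ) (h : ℝ) (x : TA) : Continuous fun s => Eo ν h s 0 x := by
  simp only [Eo, smul_apply]
  have a1 : Continuous fun s : ℝ => exp (-ν * (s - (0 : ℝ))) := by fun_prop
  exact a1.smul (continuous_Mu (f := fun _ : ℝ => x)
    (θ := fun s n => -((Real.exp (-0) - Real.exp (-s)) * h ^ 2 * nsq n)) (fun n => by fun_prop)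
    continuous_const)

theorem duh_nm_Eo (k : ℝ) (x : TA) :
    nm k (Eo ν h s σ x) = Real.exp (-ν.re * (s - σ)) * nm k x := by
  rw [Eo, smul_apply, nm_smul, nm_Mu, norm_exp]
  simp

theorem nm_Eo (hν : 0 ≤ ν.re) (h0 : 0 ≤ h) (h1 : h ≤ 1) (h2 : 0 ≤ σ) (h3 : σ ≤ s) (x : TA) :
    nm (hs h s) (Eo ν h s σ x) ≤ nm (hs h σ) x := by
  rw [duh_nm_Eo]
  have a1 : Real.exp (-ν.re * (s - σ)) ≤ 1 :=
    Real.exp_le_one_iff.2 (by nlinarith [mul_nonneg hν (sub_nonneg.2 h3)])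
  exact (mul_le_of_le_one_left (nm_nonneg _ _) a1).trans
    (nm_mono (hs_nonneg h0 s) (hs_anti h0 h3) ((hs_le h0 h2).trans h1) x)

theorem nm_Eo0 (h0 : 0 ≤ h) (h1 : h ≤ 1) (h2 : 0 ≤ s) (x : TA) :
    nm (hs h s) (Eo ν h s 0 x) ≤ Real.exp (-ν.re * s) * nm h x := by
  rw [duh_nm_Eo, sub_zero]
  exact mul_le_mul_of_nonneg_left (nm_mono (hs_nonneg h0 s) (hs_le h0 h2) h1 x)
    (Real.exp_pos _).le

theorem continuousOn_nm (h0 : 0 ≤ h) (h1 : h ≤ 1) {f : ℝ → TA} (hf : Continuous f) :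
    ContinuousOn (fun s => nm (hs h s) (f s)) (Ici 0) := by
  have a1 : ∀ x : TA, ContinuousOn (fun s => nm (hs h s) x) (Ici 0) := fun x => by
    refine continuousOn_tsum (fun n => Continuous.continuousOn ?_) (co_SW x) fun n s hs' => ?_
    · exact (a2_continuous_Wt.comp (by unfold hs; fun_prop)).mul continuous_const
    · rw [Real.norm_of_nonneg (mul_nonneg (a2_Wt_pos _).le (norm_nonneg _))]
      refine mul_le_mul_of_nonneg_right ?_ (norm_nonneg _)
      simpa using a2_Wt_mono (hs_nonneg h0 s) ((hs_le h0 hs').trans h1) (zE n)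
  have a2 : ∀ s ∈ Ici (0 : ℝ), LipschitzWith 1 (fun x : TA => nm (hs h s) x) :=
    fun s hs' => LipschitzWith.of_le_add fun x y => by
      have b0 := hs_nonneg h0 s
      have b1 := (hs_le h0 hs').trans h1
      have b2 := nm_add_le b0 b1 y (x - y)
      have b3 := nm_le_norm b0 b1 (x - y)
      rw [add_sub_cancel] at b2
      rw [dist_eq_norm]
      linarith
  exact duh_cont (fun s x => nm (hs h s) x) a1 a2 hf

theorem nm_integral (h0 : 0 ≤ h) (h1 : h ≤ 1) (h2 : 0 ≤ s) {F : ℝ → TA} (hF : Continuous F)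
    {φ : ℝ → ℝ} (hφ : ContinuousOn φ (Icc 0 s)) (hb : ∀ σ ∈ Icc 0 s, nm h (F σ) ≤ φ σ) :
    nm h (∫ σ in (0 : ℝ)..s, F σ) ≤ ∫ σ in (0 : ℝ)..s, φ σ := by
  refine (a2_sum_h (co_SW _) h0 h1).tsum_le_of_sum_le fun S => ?_
  have hc : ∀ n, Continuous fun σ => ‖co (F σ) n‖ * Wt (h • zE n) := fun n =>
    ((coL n).continuous.comp hF).norm.mul continuous_const
  calc ∑ n ∈ S, Wt (h • zE n) * ‖co (∫ σ in (0 : ℝ)..s, F σ) n‖
      ≤ ∑ n ∈ S, ∫ σ in (0 : ℝ)..s, ‖co (F σ) n‖ * Wt (h • zE n) := by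
        refine Finset.sum_le_sum fun n _ => ?_
        rw [intervalIntegral.integral_mul_const, mul_comm, ← coL_apply,
          ← (coL n).intervalIntegral_comp_comm (hF.intervalIntegrable _ _)]
        exact mul_le_mul_of_nonneg_right (intervalIntegral.norm_integral_le_integral_norm h2)
          (a2_Wt_pos _).le
    _ = ∫ σ in (0 : ℝ)..s, ∑ n ∈ S, ‖co (F σ) n‖ * Wt (h • zE n) :=
        (intervalIntegral.integral_finsetSum fun n _ => (hc n).intervalIntegrable _ _).symm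
    _ ≤ _ := intervalIntegral.integral_mono_on h2
        ((continuous_finsetSum S fun n _ => hc n).intervalIntegrable _ _)
        (hφ.intervalIntegrable_of_Icc h2) fun σ hσ => (nm_sum_co h0 h1 _ S).trans (hb σ hσ)

theorem nm_Duh (hν : 0 ≤ ν.re) (h0 : 0 ≤ h) (h1 : h ≤ 1) (h2 : 0 ≤ s) {F : ℝ → TA}
    (hF : Continuous F) {φ : ℝ → ℝ} (hφ : ContinuousOn φ (Icc 0 s))
    (hb : ∀ σ ∈ Icc 0 s, nm (hs h σ) (F σ) ≤ φ σ) :
    nm (hs h s) (Duh ν h F s) ≤ ∫ σ in (0 : ℝ)..s, φ σ :=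
  nm_integral (hs_nonneg h0 s) ((hs_le h0 h2).trans h1) h2 (continuous_Eo ν h s hF) hφ
    fun σ hσ => (nm_Eo hν h0 h1 hσ.1 hσ.2 _).trans (hb σ hσ)

theorem nm_Duh_const (hν : 0 ≤ ν.re) (h0 : 0 ≤ h) (h1 : h ≤ 1) {N : ℝ} (h2 : s ∈ Icc 0 N)
    {F : ℝ → TA} (hF : Continuous F) {b : ℝ} (hb : ∀ σ ∈ Icc 0 s, nm (hs h σ) (F σ) ≤ b) :
    nm (hs h s) (Duh ν h F s) ≤ N * b := by
  refine (nm_Duh hν h0 h1 h2.1 hF continuousOn_const hb).trans ?_
  rw [intervalIntegral.integral_const, sub_zero, smul_eq_mul]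
  exact mul_le_mul_of_nonneg_right h2.2 ((nm_nonneg _ _).trans (hb 0 ⟨le_rfl, h2.1⟩))

theorem Duh_add {F G : ℝ → TA} (hF : Continuous F) (hG : Continuous G) :
    Duh ν h (fun σ => F σ + G σ) s = Duh ν h F s + Duh ν h G s := by
  simp only [Duh, map_add]
  exact intervalIntegral.integral_add ((continuous_Eo ν h s hF).intervalIntegrable _ _)
    ((continuous_Eo ν h s hG).intervalIntegrable _ _)

theorem Duh_sub {F G : ℝ → TA} (hF : Continuous F) (hG : Continuous G) :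
    Duh ν h (fun σ => F σ - G σ) s = Duh ν h F s - Duh ν h G s := by
  simp only [Duh, map_sub]
  exact intervalIntegral.integral_sub ((continuous_Eo ν h s hF).intervalIntegrable _ _)
    ((continuous_Eo ν h s hG).intervalIntegrable _ _)

theorem Duh_sum {ι : Type} (S : Finset ι) {F : ι → ℝ → TA} (hF : ∀ i, Continuous (F i)) :
    Duh ν h (fun σ => ∑ i ∈ S, F i σ) s = ∑ i ∈ S, Duh ν h (F i) s := by
  simp only [Duh, map_sum]
  exact intervalIntegral.integral_finsetSum fun i _ =>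
    (continuous_Eo ν h s (hF i)).intervalIntegrable _ _

theorem Duh_rsmul (t : ℝ) (F : ℝ → TA) :
    Duh ν h (fun σ => t • F σ) s = t • Duh ν h F s := by
  simp only [Duh, ContinuousLinearMap.map_smul_of_tower]
  exact intervalIntegral.integral_smul _ _

end Vale.Agent.P139
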