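import Vale.Agent.P139.A2.Dh

/-! P139 A2/Osc: the potential acting on a high frequency plane wave is smoothed by the time integral. -/

noncomputable section

open MeasureTheory Filter Topology Set Complex
open scoped ComplexConjugate RealInnerProductSpace

namespace Vale.Agent.P139

variable {m : ℕ} {Q : Prof m} (H : Hat Q)

theorem a2_ac : (volume : Measure E12) ≪ μW :=
  withDensity_absolutelyContinuous' a2_continuous_Wt.measurable.ennreal_ofReal.aemeasurable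
    (Eventually.of_forall fun ξ => (ENNReal.ofReal_pos.2 (a2_Wt_pos ξ)).ne')

theorem a2_continuous_mulE0 {θ : E12 → ℝ} (hθ : Measurable θ) (g : AA) :
    Continuous fun t : ℝ => mulE (fun ζ => t * θ ζ) g := by
  refine continuous_iff_continuousAt.2 fun t0 => ?_
  rw [ContinuousAt, tendsto_iff_norm_sub_tendsto_zero]
  have hi := (AA_integrable g).norm
  have hg : AEStronglyMeasurable (fun ξ => (Wt ξ : ℂ) * g ξ) volume := (AA_integrable g).1
  have e : ∀ t : ℝ, ‖mulE (fun ζ => t * θ ζ) g - mulE (fun ζ => t0 * θ ζ) g‖ =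
      ∫ ξ, ‖(exp (I * (t * θ ξ : ℝ)) - exp (I * (t0 * θ ξ : ℝ))) * ((Wt ξ : ℂ) * g ξ)‖ := by
    intro t
    rw [AA_norm]
    refine integral_congr_ae ?_
    filter_upwards [a2_ac.ae_le (Lp.coeFn_sub (mulE (fun ζ => t * θ ζ) g)
      (mulE (fun ζ => t0 * θ ζ) g)), mulE_ae (hθ.const_mul t) g, mulE_ae (hθ.const_mul t0) g]
      with ξ h1 h2 h3
    rw [h1, Pi.sub_apply, h2, h3, ← sub_mul, norm_mul, norm_mul, norm_mul, norm_real,
      Real.norm_of_nonneg (a2_Wt_pos ξ).le]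
    ring
  have hc : Continuous fun t : ℝ =>
      ∫ ξ, ‖(exp (I * (t * θ ξ : ℝ)) - exp (I * (t0 * θ ξ : ℝ))) * ((Wt ξ : ℂ) * g ξ)‖ := by
    refine continuous_of_dominated (bound := fun ξ => 2 * ‖(Wt ξ : ℂ) * g ξ‖) (fun t => ?_)
      (fun t => Eventually.of_forall fun ξ => ?_) (hi.const_mul 2)
      (Eventually.of_forall fun ξ => by fun_prop)
    · refine (AEStronglyMeasurable.mul (Measurable.aestronglyMeasurable ?_) hg).norm
      fun_prop
    · rw [norm_norm, norm_mul]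
      refine mul_le_mul_of_nonneg_right ((norm_sub_le _ _).trans ?_) (norm_nonneg _)
      rw [mul_comm I, mul_comm I, norm_exp_ofReal_mul_I, norm_exp_ofReal_mul_I]
      norm_num
  simp only [e]
  simpa using hc.tendsto t0

theorem a2_continuous_mulE {θ : E12 → ℝ} (hθ : Measurable θ) {φ : ℝ → ℝ} (hφ : Continuous φ)
    {v : ℝ → AA} (hv : Continuous v) : Continuous fun σ => mulE (fun ζ => φ σ * θ ζ) (v σ) := by
  have h : Continuous fun p : ℝ × AA => mulE (fun ζ => p.1 * θ ζ) p.2 := by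
    refine continuous_prod_of_continuous_lipschitzWith' _ 1 (fun t => ?_)
      fun g => a2_continuous_mulE0 hθ g
    refine LipschitzWith.of_dist_le_mul fun x y => ?_
    rw [dist_eq_norm, dist_eq_norm, ← map_sub, norm_mulE (hθ.const_mul t)]
    simp
  exact h.comp (hφ.prodMk hv)

theorem a2_measurable_rnd (h : ℝ) : Measurable (rnd h) := by
  unfold rnd
  split_ifs
  · exact measurable_id
  · refine (PiLp.continuous_toLp 2 _).measurable.comp (measurable_pi_lambda _ fun j => ?_)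
    refine Measurable.const_mul ((measurable_of_countable (fun n : ℤ => (n : ℝ))).comp ?_) h
    exact Measurable.floor (by fun_prop)

/-- The operator outside of the time integral. -/
def oT (h s : ℝ) (k : Z12) (a : ℂ) : AA →L[ℂ] TA :=
  a • (Mu fun n => -((1 - Real.exp (-s)) * h ^ 2 * nsq n)).comp
    ((mulT.flip (sgl k 1)).comp (Dh h))

theorem oT_apply (h s : ℝ) (k : Z12) (a : ℂ) (g : AA) : oT h s k a g =
    a • Mu (fun n => -((1 - Real.exp (-s)) * h ^ 2 * nsq n)) (Dh h g * sgl k 1) := rfl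

theorem nm_oT {h : ℝ} (h0 : h ∈ Ioc (0 : ℝ) 1) {s : ℝ} (hs0 : 0 ≤ s) (k : Z12) (a : ℂ) (g : AA) :
    nm (hs h s) (oT h s k a g) ≤ ‖a‖ * (2 ^ 80 * ‖g‖ * Wt (h • zE k)) := by
  refine (nm_mono (hs_nonneg h0.1.le s) (hs_le h0.1.le hs0) h0.2 _).trans ?_
  rw [oT_apply, nm_smul, nm_Mu]
  refine mul_le_mul_of_nonneg_left ((nm_mul_le h0.1.le h0.2 _ _).trans ?_) (norm_nonneg _)
  rw [nm_sgl, norm_one, one_mul]
  have h1 := mul_le_mul_of_nonneg_right (nm_Dh h0 g) (a2_Wt_pos (h • zE k)).le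
  nlinarith

theorem a2_norm_sq (h : ℝ) (n : Z12) : ‖h • zE n‖ ^ 2 = h ^ 2 * nsq n := by
  rw [norm_smul, mul_pow, a2_norm_zE, Real.norm_eq_abs, sq_abs]

theorem a2_osc1 {h : ℝ} (h0 : 0 < h) (ν : ℂ) (s σ : ℝ) (k : Z12) (κ : ℂ) (g : AA) :
    Eo ν h s σ (Dh (hs h σ) g *
      sgl k (κ * exp (-ν * σ - I * ((1 - Real.exp (-σ)) * ‖h • zE k‖ ^ 2 : ℝ)))) =
    oT h s k (κ * exp (-ν * s)) (mulE (fun ζ => (1 - Real.exp (-σ)) *
      (‖h • zE k + rnd h ζ‖ ^ 2 - ‖h • zE k‖ ^ 2)) (Gp 0 0 σ 0 g)) := by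
  refine co_ext (funext fun n => ?_)
  rw [co_Eo, oT_apply, co_smul, Pi.smul_apply, co_Mu, co_mul_sgl, co_mul_sgl, Dh_hs h0, co_Dh h0,
    co_Dh h0, disc_mulE h0 (θ := fun ξ => (1 - Real.exp (-σ)) *
      (‖h • zE k + ξ‖ ^ 2 - ‖h • zE k‖ ^ 2)) (by fun_prop), ← smul_add, ← a2_zE_add,
    add_sub_cancel, a2_norm_sq h n, smul_eq_mul]
  have e : ∀ a b c d e x : ℂ, a + b = c + d + e →
      exp a * (κ * exp b * x) = κ * exp c * (exp d * (1 * (exp e * x))) := by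
    intro a b c d e x h
    have : exp a * exp b = exp c * exp d * exp e := by rw [← exp_add, h, exp_add, exp_add]
    linear_combination κ * x * this
  refine e _ _ _ _ _ _ ?_
  push_cast
  ring

theorem a2_osc2 {h : ℝ} (h0 : 0 < h) (ν : ℂ) (s σ : ℝ) (k : Z12) (κ : ℂ) (g : AA) :
    Eo ν h s σ (Dh (hs h σ) g *
      sT (sgl k (κ * exp (-ν * σ - I * ((1 - Real.exp (-σ)) * ‖h • zE k‖ ^ 2 : ℝ))))) =
    oT h s (-k) (conj κ * exp (-ν * s)) (mulE (fun ζ => (1 - Real.exp (-σ)) *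
      (‖rnd h ζ - h • zE k‖ ^ 2 + ‖h • zE k‖ ^ 2)) (exp ((ν - conj ν) * σ) • Gp 0 0 σ 0 g)) := by
  refine co_ext (funext fun n => ?_)
  rw [co_Eo, oT_apply, co_smul, Pi.smul_apply, co_Mu, sT_sgl, co_mul_sgl, co_mul_sgl, Dh_hs h0,
    map_smul, map_smul, co_smul, Pi.smul_apply, co_Dh h0,
    co_Dh h0, disc_mulE h0 (θ := fun ξ => (1 - Real.exp (-σ)) *
      (‖ξ - h • zE k‖ ^ 2 + ‖h • zE k‖ ^ 2)) (by fun_prop), ← smul_sub, ← a2_zE_sub,
    sub_neg_eq_add, add_sub_cancel_right, a2_norm_sq h n, smul_eq_mul, smul_eq_mul, map_mul,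
    ← exp_conj]
  have e : ∀ a b c d e f x : ℂ, a + b = c + d + e + f →
      exp a * (conj κ * exp b * x) = conj κ * exp c * (exp d * (1 * (exp e * (exp f * x)))) := by
    intro a b c d e f x h
    have : exp a * exp b = exp c * exp d * exp e * exp f := by
      rw [← exp_add, h, exp_add, exp_add, exp_add]
    linear_combination conj κ * x * this
  refine e _ _ _ _ _ _ _ ?_
  simp only [map_sub, map_mul, map_neg, conj_ofReal, conj_I]
  push_cast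
  ring

theorem Hat.a2_osc (N : ℝ) {δ : ℝ} (hδ : 0 < δ) : ∃ M : ℝ, ∃ h0 ∈ Ioc (0 : ℝ) 1, ∀ h ∈ Ioc 0 h0,
    ∀ (k : Z12) (κ : ℂ), M ≤ ‖h • zE k‖ → ∀ s ∈ Icc 0 N,
      nm (hs h s) (Duh (nu0 m Q.β) h (fun σ => H.Bd (hs h σ) (Eo (nu0 m Q.β) h σ 0 (sgl k κ))) s) ≤
        δ * (‖κ‖ * Wt (h • zE k)) := by
  set ν := nu0 m Q.β with hν
  have c1 : ∀ g : AA, Continuous fun σ : ℝ => Gp 0 0 σ 0 g := fun g => by
    have h0 : Continuous fun σ : ℝ => ((0 : ℝ), σ, (0 : E12), g) := by fun_prop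
    simpa only [Function.comp_def] using (continuous_Gp 0).comp h0
  have c2 : Continuous fun σ : ℝ => exp ((ν - conj ν) * σ) • Gp 0 0 σ 0 H.V2 :=
    (by fun_prop : Continuous fun σ : ℝ => exp ((ν - conj ν) * σ)).smul (c1 _)
  have hd : 0 < δ / 2 ^ 81 := by positivity
  obtain ⟨M1, h1, h1p, H1⟩ := smoothing (c1 H.V1) N hd
  obtain ⟨M2, h2, h2p, H2⟩ := smoothing c2 N hd
  refine ⟨max M1 M2, min 1 (min h1 h2), ⟨by positivity, min_le_left _ _⟩, ?_⟩
  intro h hh k κ hM s hs0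
  have hh1 : h ∈ Ioc (0 : ℝ) 1 := ⟨hh.1, hh.2.trans (min_le_left _ _)⟩
  have b1 := (H1 (h • zE k) h ((le_max_left _ _).trans hM)
    ⟨hh.1.le, hh.2.trans ((min_le_right _ _).trans (min_le_left _ _))⟩ s hs0).1
  have b2 := (H2 (h • zE k) h ((le_max_right _ _).trans hM)
    ⟨hh.1.le, hh.2.trans ((min_le_right _ _).trans (min_le_right _ _))⟩ s hs0).2
  have mr := a2_measurable_rnd h
  have i1 := (a2_continuous_mulE (θ := fun ζ => ‖h • zE k + rnd h ζ‖ ^ 2 - ‖h • zE k‖ ^ 2)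
    (by fun_prop) (φ := fun σ => 1 - Real.exp (-σ)) (by fun_prop) (c1 H.V1)).intervalIntegrable
      (μ := volume) 0 s
  have i2 := (a2_continuous_mulE (θ := fun ζ => ‖rnd h ζ - h • zE k‖ ^ 2 + ‖h • zE k‖ ^ 2)
    (by fun_prop) (φ := fun σ => 1 - Real.exp (-σ)) (by fun_prop) c2).intervalIntegrable
      (μ := volume) 0 s
  have e0 : ∀ (T1 T2 : AA →L[ℂ] TA) (f1 f2 : ℝ → AA), IntervalIntegrable f1 volume 0 s →
      IntervalIntegrable f2 volume 0 s → ∫ σ in (0 : ℝ)..s, -I • (T1 (f1 σ) + T2 (f2 σ)) =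
        -I • (T1 (∫ σ in (0 : ℝ)..s, f1 σ) + T2 (∫ σ in (0 : ℝ)..s, f2 σ)) := by
    intro T1 T2 f1 f2 i1 i2
    rw [← T1.intervalIntegral_comp_comm i1, ← T2.intervalIntegral_comp_comm i2,
      ← intervalIntegral.integral_add ⟨T1.integrable_comp i1.1, T1.integrable_comp i1.2⟩
        ⟨T2.integrable_comp i2.1, T2.integrable_comp i2.2⟩, ← intervalIntegral.integral_smul]
  have e := e0 (oT h s k (κ * exp (-ν * s))) (oT h s (-k) (conj κ * exp (-ν * s))) _ _ i1 i2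
  have e' := Eq.trans (intervalIntegral.integral_congr
    (f := fun σ => Eo ν h s σ (H.Bd (hs h σ) (Eo ν h σ 0 (sgl k κ)))) fun σ _ => by
      simp only
      rw [hν, Hat.Eo_sgl, Hat.Bd, map_smul, map_add, Hat.amp, a2_osc1 hh.1, a2_osc2 hh.1]) e
  have hn : ‖exp (-ν * s)‖ ≤ 1 := by
    rw [norm_exp, Real.exp_le_one_iff]
    have := a2_nu_nonneg m Q.β
    simp only [mul_re, neg_re, ofReal_re, ofReal_im, mul_zero, sub_zero]
    nlinarith [hs0.1]
  have hk : ∀ a : ℂ, ‖a‖ = ‖κ‖ → ∀ g : AA, ‖g‖ ≤ δ / 2 ^ 81 → ∀ W : ℝ, 0 < W →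
      ‖a * exp (-ν * s)‖ * (2 ^ 80 * ‖g‖ * W) ≤ δ / 2 * (‖κ‖ * W) := by
    intro a ha g hg W hW
    rw [norm_mul, ha]
    calc ‖κ‖ * ‖exp (-ν * s)‖ * (2 ^ 80 * ‖g‖ * W) ≤ ‖κ‖ * 1 * (2 ^ 80 * (δ / 2 ^ 81) * W) := by
          gcongr
      _ = _ := by ring
  have hs1 := hs_mem hh1 hs0.1
  rw [Duh, e', nm_smul, norm_neg, norm_I, one_mul]
  refine (nm_add_le hs1.1.le hs1.2 _ _).trans ?_
  have f1 := (nm_oT hh1 hs0.1 _ _ _).trans (hk κ rfl _ b1 _ (a2_Wt_pos (h • zE k)))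
  have f2 := (nm_oT hh1 hs0.1 _ _ _).trans (hk (conj κ) (norm_conj κ) _ b2 _
    (a2_Wt_pos (h • zE (-k))))
  rw [a2_zE_neg, smul_neg, a2_Wt_neg] at f2
  linarith

end Vale.Agent.P139
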