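import Vale.Agent.P139.A2.Near
import Vale.Agent.P139.A2.Osc

/-! P139 A2/Far: the defect for all frequencies. -/

noncomputable section

open MeasureTheory Filter Topology Set Complex
open scoped ComplexConjugate RealInnerProductSpace

namespace Vale.Agent.P139

variable {m : ℕ} {Q : Prof m} (H : Hat Q)

theorem Hat.a2_far {N C ε : ℝ} {Z : E12 → ℂ → ℝ → AA} (hL : H.Lin N C ε Z) {δ : ℝ}
    (hδ : 0 < δ) : ∃ M : ℝ, ∃ h0 ∈ Ioc (0 : ℝ) 1, ∀ h ∈ Ioc 0 h0, ∀ (k : Z12) (κ : ℂ),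
      M ≤ ‖h • zE k‖ → ∀ s ∈ Icc 0 N,
        nm (hs h s) (H.df Z h k κ s) ≤ δ * (‖κ‖ * Wt (h • zE k)) := by
  have hB := H.CB_nonneg
  have hp : 0 < 2 ^ 60 + 1 + |N| * (H.CB * 2 ^ 60) := add_pos_of_pos_of_nonneg (by norm_num)
    (mul_nonneg (abs_nonneg _) (mul_nonneg hB (by norm_num)))
  obtain ⟨d, hd, hdδ⟩ : ∃ d, 0 < d ∧ (2 ^ 60 + 1 + |N| * (H.CB * 2 ^ 60)) * d = δ :=
    ⟨δ / _, div_pos hδ hp, mul_div_cancel₀ _ hp.ne'⟩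
  obtain ⟨M1, H1⟩ := hL.far d hd
  obtain ⟨M2, h2, hh2, H2⟩ := H.a2_osc N hd
  refine ⟨max M1 M2, h2, hh2, fun h hh k κ hM s hs0 => ?_⟩
  have m0 : h ∈ Ioc (0 : ℝ) 1 := ⟨hh.1, hh.2.trans hh2.2⟩
  have ms := hs_mem m0 hs0.1
  have z := H1 _ κ ((le_max_left _ _).trans hM)
  have cz : Continuous fun σ => Z (h • zE k) κ σ := by
    have h0 : Continuous fun σ : ℝ => (h • zE k, κ, σ) := by fun_prop
    simpa only [Function.comp_def] using hL.cont.comp h0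
  have c1 := H.continuous_Bd hh.1 (continuous_Eo0 (nu0 m Q.β) h (sgl k κ))
  have c2 := H.continuous_Bd hh.1 (continuous_Dh hh.1 cz)
  have b1 := (nm_Dh ms _).trans (mul_le_mul_of_nonneg_left (z s hs0) (by positivity))
  have b2 := H2 h hh k κ ((le_max_right _ _).trans hM) s hs0
  have b3 := nm_Duh_const (a2_nu_nonneg m Q.β) m0.1.le m0.2 hs0 c2
    (b := H.CB * (2 ^ 60 * (d * (‖κ‖ * Wt (h • zE k))))) fun σ hσ =>
      (H.nm_Bd (hs_mem m0 hσ.1) _).trans (mul_le_mul_of_nonneg_left ((nm_Dh (hs_mem m0 hσ.1) _).trans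
        (mul_le_mul_of_nonneg_left (z σ ⟨hσ.1, hσ.2.trans hs0.2⟩) (by positivity))) hB)
  simp only [Hat.df, Hat.pc, H.Bd_add]
  rw [Duh_add c1 c2]
  refine ((nm_sub_le ms.1.le ms.2 _ _).trans (add_le_add b1
    ((nm_add_le ms.1.le ms.2 _ _).trans (add_le_add b2 b3)))).trans (le_of_eq ?_)
  rw [← hdδ, abs_of_nonneg (hs0.1.trans hs0.2)]
  ring

theorem Hat.df_hom {N C ε : ℝ} {Z : E12 → ℂ → ℝ → AA} (hL : H.Lin N C ε Z) (h : ℝ) (k : Z12)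
    (κ : ℂ) (t s : ℝ) : H.df Z h k (t * κ) s = t • H.df Z h k κ s := by
  have e : ∀ σ, H.pc Z h k (t * κ) σ = t • H.pc Z h k κ σ := fun σ => by
    rw [Hat.pc, Hat.pc, hL.hom, Dh_rsmul, sgl_mul, map_smul, smul_add, Complex.coe_smul]
  simp only [Hat.df, e, hL.hom, Dh_rsmul, H.Bd_rsmul, Duh_rsmul, smul_sub]

theorem Hat.a2_df {N C ε : ℝ} {Z : E12 → ℂ → ℝ → AA} (hL : H.Lin N C ε Z) {δ : ℝ}
    (hδ : 0 < δ) : ∃ h0 ∈ Ioc (0 : ℝ) 1, ∀ h ∈ Ioc 0 h0, ∀ (k : Z12) (κ : ℂ), ∀ s ∈ Icc 0 N,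
      nm (hs h s) (H.df Z h k κ s) ≤ δ * (‖κ‖ * Wt (h • zE k)) := by
  obtain ⟨M, h1, hh1, H1⟩ := H.a2_far hL hδ
  obtain ⟨h2, hh2, H2⟩ := H.a2_near hL M hδ
  refine ⟨min h1 h2, ⟨lt_min hh1.1 hh2.1, (min_le_left _ _).trans hh1.2⟩, fun h hh k κ s hs0 => ?_⟩
  rcases le_total M ‖h • zE k‖ with hM | hM
  · exact H1 h ⟨hh.1, hh.2.trans (min_le_left _ _)⟩ k κ hM s hs0
  · obtain ⟨κ', h1, h2⟩ : ∃ κ' : ℂ, ‖κ'‖ ≤ 1 ∧ κ = (‖κ‖ : ℝ) * κ' := by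
      rcases eq_or_ne κ 0 with rfl | h0
      · exact ⟨0, by simp, by simp⟩
      · have := norm_ne_zero_iff.2 h0
        exact ⟨κ / (‖κ‖ : ℝ), by simp [this], (mul_div_cancel₀ _ (ofReal_ne_zero.2 this)).symm⟩
    have b := H2 h ⟨hh.1, hh.2.trans (min_le_right _ _)⟩ k κ' hM h1 s hs0
    nth_rewrite 1 [h2]
    rw [H.df_hom hL, nm_rsmul, abs_norm, mul_left_comm]
    exact mul_le_mul_of_nonneg_left (b.trans (le_mul_of_one_le_right hδ.le (a2_one_le_Wt _)))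
      (norm_nonneg _)

end Vale.Agent.P139
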