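import Vale.Agent.P139.A2.Duh

/-! P139 A2/USol: a solution in the sense of `TSol` is a continuous curve in `TA`. -/

noncomputable section

open MeasureTheory Filter Topology Set Complex
open scoped ComplexConjugate RealInnerProductSpace

namespace Vale.Agent.P139

/-- Coordinatewise continuous, locally bounded paths. -/
def Gd (F : ℝ → TA) : Prop :=
  (∀ n, Continuous fun t => co (F t) n) ∧ ∀ T : ℝ, ∃ C, ∀ t ≤ T, ‖F t‖ ≤ C

theorem a2_co_le (x : TA) (n : Z12) : ‖co x n‖ ≤ ‖x‖ * (Wt (zE n))⁻¹ := by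
  have h := nm_sum_co zero_le_one le_rfl x {n}
  rw [Finset.sum_singleton, one_smul, ← norm_eq_nm] at h
  rwa [← div_eq_mul_inv, le_div_iff₀ (a2_Wt_pos _)]

theorem Gd.mul {F G : ℝ → TA} (hF : Gd F) (hG : Gd G) : Gd fun t => F t * G t := by
  refine ⟨fun n => continuous_iff_continuousAt.2 fun t0 => ?_, fun T => ?_⟩
  · obtain ⟨C, hC⟩ := hF.2 (t0 + 1)
    obtain ⟨D, hD⟩ := hG.2 (t0 + 1)
    simp only [co_mul, cv]
    refine ContinuousOn.continuousAt (continuousOn_tsum (u := fun k => C * D * (Wt (zE k))⁻¹)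
      (fun k => ((hF.1 k).mul (hG.1 (n - k))).continuousOn) (a2_sum_inv.mul_left _)
      fun k t ht => ?_) (Iic_mem_nhds (lt_add_one t0))
    have h0 := (inv_pos.2 (a2_Wt_pos (zE k))).le
    have h1 := (a2_co_le (F t) k).trans (mul_le_mul_of_nonneg_right (hC t ht) h0)
    have h2 := (a2_co_le (G t) (n - k)).trans ((mul_le_of_le_one_right (norm_nonneg _)
      (inv_le_one_of_one_le₀ (a2_one_le_Wt _))).trans (hD t ht))
    rw [norm_mul, mul_right_comm]
    exact mul_le_mul h1 h2 (norm_nonneg _) ((norm_nonneg _).trans h1)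
  · obtain ⟨C, hC⟩ := hF.2 T
    obtain ⟨D, hD⟩ := hG.2 T
    refine ⟨2 ^ 20 * (C * D), fun t ht => ?_⟩
    have h := nm_mul_le zero_le_one le_rfl (F t) (G t)
    simp only [← norm_eq_nm] at h
    refine h.trans (mul_le_mul_of_nonneg_left ?_ (by positivity))
    exact mul_le_mul (hC t ht) (hD t ht) (norm_nonneg _) ((norm_nonneg _).trans (hC t ht))

theorem Gd.NL {F : ℝ → TA} (hF : Gd F) (m : ℕ) : Gd fun t => NL m (F t) := by
  have h1 : Gd fun t => sT (F t) := by
    refine ⟨fun n => ?_, fun T => ?_⟩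
    · simp only [co_sT, st]
      exact continuous_conj.comp (hF.1 _)
    · simpa only [norm_eq_nm, nm_sT] using hF.2 T
  induction m with
  | zero => simpa [P139.NL] using hF
  | succ m ih => simpa only [P139.NL, pow_succ', mul_assoc] using (hF.mul h1).mul ih

theorem a2_lip {W y : ℝ → TA} (hW : Gd W) {f : Z12 → ℝ → ℂ} (hf : ∀ n, Continuous (f n))
    (hn : ∀ n t, ‖f n t‖ = ‖co (W t) n‖) {a : Z12 → ℂ}
    (hy : ∀ t, 0 ≤ t → ∀ n, co (y t) n = a n + ∫ s in (0 : ℝ)..t, f n s) :
    ContinuousOn y (Ici 0) := by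
  intro t0 ht0
  obtain ⟨C, hC⟩ := hW.2 (t0 + 1)
  have key : ∀ s t, 0 ≤ s → s ≤ t → t ≤ t0 + 1 → ‖y t - y s‖ ≤ |C| * (t - s) := by
    intro s t h0 hst ht
    rw [norm_eq_nm, nm, wn]
    refine Real.tsum_le_of_sum_le (fun n => mul_nonneg (a2_Wt_pos _).le (norm_nonneg _)) fun S => ?_
    have ci : ∀ n, Continuous fun τ => ‖co (W τ) n‖ * Wt ((1 : ℝ) • zE n) := fun n =>
      (hW.1 n).norm.mul continuous_const
    calc ∑ n ∈ S, Wt ((1 : ℝ) • zE n) * ‖co (y t - y s) n‖
        ≤ ∑ n ∈ S, ∫ τ in s..t, ‖co (W τ) n‖ * Wt ((1 : ℝ) • zE n) := by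
          refine Finset.sum_le_sum fun n _ => ?_
          rw [co_sub, Pi.sub_apply, hy t (h0.trans hst), hy s h0, add_sub_add_left_eq_sub,
            intervalIntegral.integral_interval_sub_left ((hf n).intervalIntegrable _ _)
              ((hf n).intervalIntegrable _ _), intervalIntegral.integral_mul_const, mul_comm]
          refine mul_le_mul_of_nonneg_right ?_ (a2_Wt_pos _).le
          simpa only [hn] using intervalIntegral.norm_integral_le_integral_norm (f := f n) hst
      _ = ∫ τ in s..t, ∑ n ∈ S, ‖co (W τ) n‖ * Wt ((1 : ℝ) • zE n) :=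
          (intervalIntegral.integral_finsetSum fun n _ => (ci n).intervalIntegrable _ _).symm
      _ ≤ ∫ τ in s..t, |C| := by
          refine intervalIntegral.integral_mono_on hst
            ((continuous_finsetSum _ fun n _ => ci n).intervalIntegrable _ _)
            intervalIntegrable_const fun τ hτ => ?_
          refine (nm_sum_co zero_le_one le_rfl _ S).trans ?_
          rw [← norm_eq_nm]
          exact (hC τ (hτ.2.trans ht)).trans (le_abs_self C)
      _ = _ := by simp [mul_comm]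
  have lip : LipschitzOnWith ⟨|C|, abs_nonneg C⟩ y (Ici 0 ∩ Iic (t0 + 1)) := by
    refine LipschitzOnWith.of_dist_le_mul fun s hs t ht => ?_
    rcases le_total s t with h | h
    · rw [dist_comm, dist_comm s, dist_eq_norm, Real.dist_eq, abs_of_nonneg (sub_nonneg.2 h)]
      exact key s t hs.1 h ht.2
    · rw [dist_eq_norm, Real.dist_eq, abs_of_nonneg (sub_nonneg.2 h)]
      exact key t s ht.1 h hs.2
  exact (lip.continuousOn t0 ⟨ht0, (lt_add_one t0).le⟩).mono_of_mem_nhdsWithin
    (inter_mem_nhdsWithin _ (Iic_mem_nhds (lt_add_one t0)))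

theorem a2_usol {m : ℕ} {v : ℝ → Z12 → ℂ} (h : TSol m v) :
    ∃ U, USol m U ∧ ∀ t, 0 ≤ t → co (U t) = v t := by
  have hS : ∀ t, SW (v (max t 0)) := fun t => by
    obtain ⟨C, hC⟩ := h.bdd (max t 0)
    exact (hC _ ⟨le_max_right _ _, le_rfl⟩).1
  obtain ⟨U, hU⟩ : ∃ U : ℝ → TA, ∀ t, co (U t) = v (max t 0) := ⟨_, fun t => co_mkT _ (hS t)⟩
  have hU0 : ∀ t, 0 ≤ t → co (U t) = v t := fun t ht => by rw [hU, max_eq_left ht]
  have cm : Continuous fun t : ℝ => max t 0 := by fun_prop
  have g : Gd U := by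
    refine ⟨fun n => ?_, fun T => ?_⟩
    · simp only [hU]
      exact (h.cont n).comp_continuous cm fun t => mem_Ici.2 (le_max_right _ _)
    · obtain ⟨C, hC⟩ := h.bdd (max T 0)
      refine ⟨C, fun t ht => ?_⟩
      rw [norm_eq_nm, nm, hU]
      exact (hC _ ⟨le_max_right _ _, max_le_max_right _ ht⟩).2
  have gN := g.NL m
  have duh : ∀ t, 0 ≤ t → ∀ n, co (U t) n = exp (I * (-(nsq n * t) : ℝ)) * co (U 0) n +
      ∫ s in (0 : ℝ)..t, exp (I * (-(nsq n * (t - s)) : ℝ)) * (-I * co (NL m (U s)) n) := by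
    intro t ht n
    rw [hU0 t ht, hU0 0 le_rfl, h.duh t ht n, sub_eq_add_neg, ← neg_mul,
      ← intervalIntegral.integral_const_mul]
    congr 1
    · congr 2
      push_cast
      ring
    · refine intervalIntegral.integral_congr fun s hs => ?_
      rw [uIcc_of_le ht] at hs
      simp only [co_NL, hU0 s hs.1]
      rw [mul_left_comm]
      congr 2
      push_cast
      ring
  have cy : ContinuousOn (fun t => Mu (fun n => nsq n * t) (U t)) (Ici 0) := by
    refine a2_lip gN (f := fun n s => exp (I * (nsq n * s : ℝ)) * (-I * co (NL m (U s)) n))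
      (a := co (U 0)) (fun n => ?_) (fun n t => ?_) fun t ht n => ?_
    · have := gN.1 n
      fun_prop
    · rw [norm_mul, mul_comm I, norm_exp_ofReal_mul_I]
      simp
    · rw [co_Mu, duh t ht, mul_add, ← mul_assoc, ← exp_add, ← intervalIntegral.integral_const_mul]
      congr 1
      · rw [← mul_add, ← ofReal_add, add_neg_cancel]
        simp
      · refine intervalIntegral.integral_congr fun s _ => ?_
        rw [← mul_assoc, ← exp_add]
        congr 2
        push_cast
        ring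
  have cU : Continuous U := by
    have := continuous_Mu (θ := fun t n => -(nsq n * max t 0)) (fun n => by fun_prop)
      (cy.comp_continuous cm fun t => mem_Ici.2 (le_max_right _ _))
    refine this.congr fun t => ?_
    simp only [Function.comp, Mu_Mu, neg_add_cancel, Mu_zero]
    exact co_ext (by rw [hU, hU, max_eq_left (le_max_right t 0)])
  refine ⟨U, ⟨cU, fun t ht => co_ext (funext fun n => ?_)⟩, hU0⟩
  have ci : Continuous fun τ => Mu (fun n => -(nsq n * (t - τ))) (-I • NL m (U τ)) :=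
    continuous_Mu (fun n => by fun_prop) (((continuous_NL m).comp cU).const_smul (-I))
  rw [co_add, Pi.add_apply, co_Mu, duh t ht, ← coL_apply n (∫ τ in (0 : ℝ)..t, _),
    ← (coL n).intervalIntegral_comp_comm (ci.intervalIntegrable _ _)]
  simp only [coL_apply, co_Mu, co_smul, Pi.smul_apply, smul_eq_mul]

end Vale.Agent.P139
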