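import Vale.Agent.P139.A2.Step
import Vale.Agent.P139.A2.USol

/-! P139 A2/Fin: iteration of the step and blow-up. -/

noncomputable section

open MeasureTheory Filter Topology Set Complex
open scoped ComplexConjugate RealInnerProductSpace

namespace Vale.Agent.P139

variable {m : ℕ} {Q : Prof m} (H : Hat Q)

theorem Hat.a2_state_le {U : ℝ → TA} {ε t L : ℝ} (hL : L ∈ Ioc (0 : ℝ) 1) (h : H.State U ε t L) :
    ‖Q.q 0‖ ≤ ε + L ^ (2 * aa m) * ‖U t‖ := by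
  obtain ⟨ω, x, hω, hst⟩ := h
  have h1 := (norm_tsum_co hL.1.le hL.2 _).trans hst
  have h2 := norm_tsum_co hL.1.le hL.2 (ω • Mu (fun n => ⟪zE n, x⟫) (U t))
  rw [nm_smul, nm_Mu, hω] at h2
  have h3 := h2.trans (mul_le_mul_of_nonneg_left (nm_le_norm hL.1.le hL.2 _)
    (Real.rpow_nonneg hL.1.le _))
  rw [tsum_co_sub, co_Dh hL.1, disc_sum hL.1, H.ev_q, norm_sub_rev] at h1
  have h4 : XX 0 = 0 := by simp [XX]
  rw [h4] at h1
  exact (norm_le_norm_sub_add _ _).trans (add_le_add h1 h3)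

theorem Hat.a2_blow (h : ∀ ε : ℝ, 0 < ε →
    ∃ (N C : ℝ) (Z : E12 → ℂ → ℝ → AA), 1 ≤ N ∧ Real.exp (-aa m * N) ≤ ε ∧ H.Lin N C ε Z) :
    Blow m := by
  have hq : 0 < ‖Q.q 0‖ := norm_pos_iff.2 (Q.ne 0 le_rfl)
  obtain ⟨ε, hε, L0, hL0, hstep⟩ := H.a2_step h (half_pos hq)
  have ha := a2_aa_pos Q.m_pos
  have hp : 0 < L0 ^ (2 * aa m) := Real.rpow_pos_of_pos hL0.1 _
  have hp1 : L0 ^ (2 * aa m) ≤ 1 := Real.rpow_le_one hL0.1.le hL0.2 (by positivity)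
  refine ⟨co ((((L0 ^ (2 * aa m) : ℝ) : ℂ))⁻¹ • Dh L0 H.q), ε, co_SW _, hε.1, fun v hv hlt => ?_⟩
  obtain ⟨U, hU, hUv⟩ := a2_usol hv
  have s0 : H.State U ε 0 L0 := by
    refine ⟨((L0 ^ (2 * aa m) : ℝ) : ℂ), 0, by rw [norm_real, Real.norm_of_nonneg hp.le], ?_⟩
    rw [← hUv 0 le_rfl, ← co_sub] at hlt
    have e : ((L0 ^ (2 * aa m) : ℝ) : ℂ) • Mu (fun n => ⟪zE n, (0 : E12)⟫) (U 0) - Dh L0 H.q =
        ((L0 ^ (2 * aa m) : ℝ) : ℂ) • (U 0 - (((L0 ^ (2 * aa m) : ℝ) : ℂ))⁻¹ • Dh L0 H.q) := by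
      simp only [inner_zero_right, Mu_zero]
      rw [smul_sub, smul_inv_smul₀ (ofReal_ne_zero.2 hp.ne')]
    rw [e, nm_smul, norm_real, Real.norm_of_nonneg hp.le]
    exact (mul_le_of_le_one_left (nm_nonneg _ _) hp1).trans
      ((nm_mono hL0.1.le hL0.2 le_rfl _).trans hlt.le)
  have e4 : Real.exp (-1 / 4) ^ 2 ≤ 2 / 3 := by
    rw [← Real.exp_nat_mul, show ((2 : ℕ) : ℝ) * (-1 / 4) = -(1 / 2) by norm_num, Real.exp_neg]
    have := Real.add_one_le_exp (1 / 2 : ℝ)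
    rw [inv_le_comm₀ (Real.exp_pos _) (by norm_num)]
    linarith
  have e1 : Real.exp (-1 / 4) < 1 := Real.exp_lt_one_iff.2 (by norm_num)
  have e0 := Real.exp_pos (-1 / 4)
  have it : ∀ j : ℕ, ∃ t L, 0 ≤ t ∧ 0 < L ∧ L ≤ L0 * Real.exp (-1 / 4) ^ j ∧ t + 3 * L ^ 2 ≤ 3 ∧
      H.State U ε t L := by
    intro j
    induction j with
    | zero => exact ⟨0, L0, le_rfl, hL0.1, by simp, by nlinarith [hL0.1, hL0.2], s0⟩
    | succ j ih =>
      obtain ⟨t, L, ht, hL, hLj, h3, hst⟩ := ih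
      obtain ⟨t', L', k1, k2, k3, k4, k5⟩ := hstep U hU t L ht
        ⟨hL, hLj.trans (mul_le_of_le_one_right hL0.1.le (pow_le_one₀ e0.le e1.le))⟩ hst
      refine ⟨t', L', ht.trans k1, k3, k4.trans ?_, ?_, k5⟩
      · rw [pow_succ, ← mul_assoc]
        exact mul_le_mul_of_nonneg_right hLj e0.le
      · have := pow_le_pow_left₀ k3.le k4 2
        rw [mul_pow] at this
        nlinarith [mul_le_mul_of_nonneg_left e4 (sq_nonneg L)]
  obtain ⟨B, hB⟩ := (isCompact_Icc (a := (0 : ℝ)) (b := 3)).exists_bound_of_continuousOn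
    hU.1.continuousOn
  have lim : Tendsto (fun j : ℕ => ε + (L0 * Real.exp (-1 / 4) ^ j) ^ (2 * aa m) * B) atTop
      (𝓝 (ε + 0 * B)) := by
    refine tendsto_const_nhds.add (Tendsto.mul_const _ ?_)
    refine Tendsto.rpow_const_nhds_zero ?_ (by positivity)
    simpa using (tendsto_pow_atTop_nhds_zero_of_lt_one e0.le e1).const_mul L0
  have := ge_of_tendsto' lim fun j => (show ‖Q.q 0‖ ≤ _ from by
    obtain ⟨t, L, ht, hL, hLj, h3, hst⟩ := it j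
    refine (H.a2_state_le ⟨hL, (hLj.trans (mul_le_of_le_one_right hL0.1.le
      (pow_le_one₀ e0.le e1.le))).trans hL0.2⟩ hst).trans (add_le_add le_rfl ?_)
    exact mul_le_mul (Real.rpow_le_rpow hL.le hLj (by positivity))
      (hB t ⟨ht, by nlinarith [sq_nonneg L]⟩) (norm_nonneg _) (by have := hL0.1; positivity))
  linarith [hε.2]

end Vale.Agent.P139
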