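import Vale.Agent.P139.A2.Boot
import Vale.Agent.P139.A2.Far

/-! P139 A2/Lin: comparison with the approximate linearised flow. -/

noncomputable section

open MeasureTheory Filter Topology Set Complex
open scoped ComplexConjugate RealInnerProductSpace

namespace Vale.Agent.P139

variable {m : ℕ} {Q : Prof m} (H : Hat Q)

/-- The equation for the difference. -/
theorem Hat.a2_lin_eq {N C ε' : ℝ} {Z : E12 → ℂ → ℝ → AA} (hL : H.Lin N C ε' Z) {h : ℝ}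
    (h0 : 0 < h) {V : ℝ → TA} (hV : H.Sol h N V) (S : Finset Z12) (κ : Z12 → ℂ) {s : ℝ}
    (hs0 : s ∈ Icc 0 N) :
    V s - Dh (hs h s) H.q - ∑ k ∈ S, H.pc Z h k (κ k) s =
      Eo (nu0 m Q.β) h s 0 (V 0 - Dh h H.q - ∑ k ∈ S, sgl k (κ k)) -
      (Dh (hs h s) H.q - (Eo (nu0 m Q.β) h s 0 (Dh h H.q) +
        Duh (nu0 m Q.β) h (fun σ => -I • NL m (Dh (hs h σ) H.q)) s)) -
      ∑ k ∈ S, H.df Z h k (κ k) s +
      Duh (nu0 m Q.β) h (fun σ => -I • NL m (V σ) - -I • NL m (Dh (hs h σ) H.q) -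
        ∑ k ∈ S, H.Bd (hs h σ) (H.pc Z h k (κ k) σ)) s := by
  have c1 : Continuous fun σ => -I • NL m (V σ) := ((continuous_NL m).comp hV.1).const_smul (-I)
  have c2 : Continuous fun σ => -I • NL m (Dh (hs h σ) H.q) :=
    ((continuous_NL m).comp (continuous_Dh h0 continuous_const)).const_smul (-I)
  have c3 : ∀ k, Continuous fun σ => H.Bd (hs h σ) (H.pc Z h k (κ k) σ) := fun k =>
    H.continuous_Bd h0 (H.continuous_pc hL h0 k _)
  rw [Duh_sub (c1.fun_sub c2) (continuous_finsetSum _ fun k _ => c3 k), Duh_sub c1 c2, Duh_sum S c3]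
  have e : ∑ k ∈ S, H.pc Z h k (κ k) s = ∑ k ∈ S, Eo (nu0 m Q.β) h s 0 (sgl k (κ k)) +
      ∑ k ∈ S, H.df Z h k (κ k) s +
      ∑ k ∈ S, Duh (nu0 m Q.β) h (fun σ => H.Bd (hs h σ) (H.pc Z h k (κ k) σ)) s := by
    rw [← Finset.sum_add_distrib, ← Finset.sum_add_distrib]
    refine Finset.sum_congr rfl fun k _ => ?_
    rw [Hat.df, Hat.pc]
    abel
  rw [e, map_sub, map_sub, map_sum]
  nth_rewrite 1 [hV.2 s hs0]
  abel

theorem Hat.a2_lin {N C ε' : ℝ} {Z : E12 → ℂ → ℝ → AA} (hL : H.Lin N C ε' Z) (hN : 0 ≤ N) :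
    ∃ K ε1 : ℝ, 0 ≤ K ∧ 0 < ε1 ∧ ∀ ε ∈ Ioc 0 ε1, ∀ δ > 0, ∃ h0 ∈ Ioc (0 : ℝ) 1, ∀ h ∈ Ioc 0 h0, ∀ V,
      H.Sol h N V → nm h (V 0 - Dh h H.q) ≤ ε → ∃ S : Finset Z12,
        nm (hs h N) (V N - Dh (hs h N) H.q - ∑ k ∈ S, H.pc Z h k (co (V 0 - Dh h H.q) k) N) ≤
          K * ε ^ 2 + δ := by
  obtain ⟨G, ε1, hε1, hG, hGε, hb⟩ := H.a2_boot hN
  obtain ⟨K0, hK0, hrem⟩ := a2_NL_rem m (2 ^ 60 * ‖H.q‖)
  have hE : 0 < Real.exp (H.CB * N) := Real.exp_pos _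
  refine ⟨N * (K0 * G ^ 2) * Real.exp (H.CB * N), ε1, by positivity, hε1, fun ε hε δ hδ => ?_⟩
  have hε0 := hε.1
  obtain ⟨d, hd, hdδ⟩ : ∃ d, 0 < d ∧ (2 + ε + N) * d * Real.exp (H.CB * N) = δ :=
    ⟨δ / ((2 + ε + N) * Real.exp (H.CB * N)), by positivity, by field_simp⟩
  obtain ⟨h1, hh1, H1⟩ := hb ε hε
  obtain ⟨h2, hh2, H2⟩ := H.a2_dh_lin hd
  obtain ⟨h3, hh3, H3⟩ := H.a2_stat N hd
  obtain ⟨h4, hh4, H4⟩ := H.a2_df hL hd
  refine ⟨min (min h1 h2) (min h3 h4), ⟨lt_min (lt_min hh1.1 hh2.1) (lt_min hh3.1 hh4.1),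
    (min_le_left _ _).trans ((min_le_left _ _).trans hh1.2)⟩, fun h hh V hV hV0 => ?_⟩
  have m1 : h ∈ Ioc 0 h1 := ⟨hh.1, hh.2.trans ((min_le_left _ _).trans (min_le_left _ _))⟩
  have m2 : h ∈ Ioc 0 h2 := ⟨hh.1, hh.2.trans ((min_le_left _ _).trans (min_le_right _ _))⟩
  have m3 : h ∈ Ioc 0 h3 := ⟨hh.1, hh.2.trans ((min_le_right _ _).trans (min_le_left _ _))⟩
  have m4 : h ∈ Ioc 0 h4 := ⟨hh.1, hh.2.trans ((min_le_right _ _).trans (min_le_right _ _))⟩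
  have m0 : h ∈ Ioc (0 : ℝ) 1 := ⟨hh.1, m1.2.trans hh1.2⟩
  have hν := a2_nu_nonneg m Q.β
  obtain ⟨S, hS⟩ := exists_trunc (V 0 - Dh h H.q) hd
  refine ⟨S, ?_⟩
  set κ := co (V 0 - Dh h H.q) with hκ
  have c2 : Continuous fun σ => Dh (hs h σ) H.q := continuous_Dh hh.1 continuous_const
  have c3 : ∀ k, Continuous (H.pc Z h k (κ k)) := fun k => H.continuous_pc hL hh.1 k _
  set g : ℝ → ℝ := fun s => nm (hs h s) (V s - Dh (hs h s) H.q - ∑ k ∈ S, H.pc Z h k (κ k) s)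
    with hg
  have cg : ContinuousOn g (Ici 0) := continuousOn_nm m0.1.le m0.2
    ((hV.1.sub c2).sub (continuous_finsetSum _ fun k _ => c3 k))
  have key : ∀ s ∈ Icc 0 N, g s ≤ (N * (K0 * G ^ 2) * ε ^ 2 + (2 + ε + N) * d) +
      H.CB * ∫ σ in (0 : ℝ)..s, g σ := by
    intro s hs0
    have ms := hs_mem m0 hs0.1
    have cs : ContinuousOn g (Icc 0 s) := cg.mono Icc_subset_Ici_self
    have b1 : nm (hs h s) (Eo (nu0 m Q.β) h s 0 (V 0 - Dh h H.q - ∑ k ∈ S, sgl k (κ k))) ≤ d := by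
      refine (nm_Eo hν m0.1.le m0.2 le_rfl hs0.1 _).trans ?_
      rw [hs_zero]
      exact (nm_le_norm m0.1.le m0.2 _).trans hS
    have b2 := H3 h m3 s hs0
    have b3 : nm (hs h s) (∑ k ∈ S, H.df Z h k (κ k) s) ≤ d * ε := by
      refine (nm_sum_le ms.1.le ms.2 _ _).trans ?_
      refine (Finset.sum_le_sum fun k _ => H4 h m4 k (κ k) s hs0).trans ?_
      rw [← Finset.mul_sum]
      exact mul_le_mul_of_nonneg_left ((nm_sum_co m0.1.le m0.2 _ S).trans hV0) hd.le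
    have b4 := nm_Duh (F := fun σ => -I • NL m (V σ) - -I • NL m (Dh (hs h σ) H.q) -
        ∑ k ∈ S, H.Bd (hs h σ) (H.pc Z h k (κ k) σ))
      (φ := fun σ => (K0 * G ^ 2 * ε ^ 2 + d) + H.CB * g σ) hν m0.1.le m0.2 hs0.1
      (((((continuous_NL m).comp hV.1).const_smul (-I)).sub
        (((continuous_NL m).comp c2).const_smul (-I))).sub
        (continuous_finsetSum _ fun k _ => H.continuous_Bd hh.1 (c3 k)))
      (continuousOn_const.add (continuousOn_const.mul cs)) fun σ hσ => by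
        have mσ := hs_mem m0 hσ.1
        have hw := H1 h m1 V hV hV0 σ ⟨hσ.1, hσ.2.trans hs0.2⟩
        have hw1 : G * ε ≤ 1 := (mul_le_mul_of_nonneg_left hε.2 hG).trans hGε
        set w := V σ - Dh (hs h σ) H.q with hw'
        have r1 := hrem (hs h σ) ⟨mσ.1.le, mσ.2⟩ _ w (nm_Dh mσ H.q) (hw.trans hw1)
        have r2 := H2 (hs h σ) (hs_mem m2 hσ.1) w
        have r3 := H.nm_Bd mσ (w - ∑ k ∈ S, H.pc Z h k (κ k) σ)
        have e : -I • NL m (V σ) - -I • NL m (Dh (hs h σ) H.q) -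
            ∑ k ∈ S, H.Bd (hs h σ) (H.pc Z h k (κ k) σ) =
            -I • (NL m (Dh (hs h σ) H.q + w) - NL m (Dh (hs h σ) H.q) -
              NL' m (Dh (hs h σ) H.q) w) + (-I • NL' m (Dh (hs h σ) H.q) w - H.Bd (hs h σ) w) +
              H.Bd (hs h σ) (w - ∑ k ∈ S, H.pc Z h k (κ k) σ) := by
          rw [H.Bd_sub _ w, H.Bd_sum, smul_sub, smul_sub, show Dh (hs h σ) H.q + w = V σ from
            add_sub_cancel _ _]
          abel
        rw [e]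
        refine (nm_add_le mσ.1.le mσ.2 _ _).trans (add_le_add ((nm_add_le mσ.1.le mσ.2 _ _).trans
          (add_le_add ?_ ?_)) r3)
        · rw [nm_smul, norm_neg, norm_I, one_mul]
          refine r1.trans ?_
          rw [mul_assoc, ← mul_pow]
          have := nm_nonneg (hs h σ) w
          gcongr
        · exact r2.trans (mul_le_of_le_one_right hd.le (hw.trans hw1))
    rw [intervalIntegral.integral_add intervalIntegrable_const
      ((cs.intervalIntegrable_of_Icc hs0.1).const_mul _), intervalIntegral.integral_const,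
      intervalIntegral.integral_const_mul, sub_zero, smul_eq_mul] at b4
    have b5 : s * (K0 * G ^ 2 * ε ^ 2 + d) ≤ N * (K0 * G ^ 2 * ε ^ 2 + d) :=
      mul_le_mul_of_nonneg_right hs0.2 (by positivity)
    have b6 := (nm_add_le ms.1.le ms.2 _ _).trans (add_le_add ((nm_sub_le ms.1.le ms.2 _ _).trans
      (add_le_add ((nm_sub_le ms.1.le ms.2 _ _).trans (add_le_add b1 b2)) b3)) b4)
    rw [← H.a2_lin_eq hL hh.1 hV S κ hs0] at b6
    refine b6.trans ?_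
    linarith
  have fin := a2_gron H.CB_nonneg (cg.mono Icc_subset_Ici_self) key N ⟨hN, le_rfl⟩
  refine fin.trans (le_of_eq ?_)
  rw [← hdδ]
  ring

end Vale.Agent.P139
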