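import Vale.Agent.P139.A2.Unif

/-! P139 A2/Near: the defect for bounded frequencies. -/

noncomputable section

open MeasureTheory Filter Topology Set Complex
open scoped ComplexConjugate RealInnerProductSpace

namespace Vale.Agent.P139

variable {m : ℕ} {Q : Prof m} (H : Hat Q)

theorem Hat.a2_continuous_b {P : Type} [TopologicalSpace P] {η : P → E12} {κ : P → ℂ}
    (hη : Continuous η) (hκ : Continuous κ) : Continuous fun p => H.b (η p) (κ p) := by
  have c1 : ∀ {η : P → E12}, Continuous η → ∀ g : AA, Continuous fun p => tr (η p) g := by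
    intro η hη g
    simpa only [Function.comp_def] using continuous_tr.comp (hη.prodMk (continuous_const (y := g)))
  exact ((hκ.smul (c1 hη _)).add ((continuous_conj.comp hκ).smul (c1 hη.neg _))).const_smul (-I)

theorem Hat.a2_near {N C ε : ℝ} {Z : E12 → ℂ → ℝ → AA} (hL : H.Lin N C ε Z) (M : ℝ) {δ : ℝ}
    (hδ : 0 < δ) : ∃ h0 ∈ Ioc (0 : ℝ) 1, ∀ h ∈ Ioc 0 h0, ∀ (k : Z12) (κ : ℂ), ‖h • zE k‖ ≤ M →
      ‖κ‖ ≤ 1 → ∀ s ∈ Icc 0 N, nm (hs h s) (H.df Z h k κ s) ≤ δ := by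
  set g : E12 × ℂ × ℝ → AA := fun p => H.b (Real.exp (-p.2.2 / 2) • p.1)
    (Hat.amp (Q := Q) p.1 p.2.1 p.2.2) + H.B (Z p.1 p.2.1 p.2.2) with hg
  have cg : Continuous g := (H.a2_continuous_b (by fun_prop) (by unfold Hat.amp; fun_prop)).add
    (H.continuous_B.comp hL.cont)
  have hK : IsCompact (Metric.closedBall (0 : E12) M ×ˢ Metric.closedBall (0 : ℂ) 1 ×ˢ
      Icc (0 : ℝ) N) := (isCompact_closedBall _ _).prod ((isCompact_closedBall _ _).prod isCompact_Icc)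
  have hν := a2_nu_nonneg m Q.β
  obtain ⟨d, hd, hdδ⟩ : ∃ d, 0 < d ∧ (|N| + 1) * (d + d) = δ :=
    ⟨δ / (2 * (|N| + 1)), by positivity, by field_simp; ring⟩
  obtain ⟨h1, hh1, H1⟩ := a2_Sg_unif hν (hK.image cg) N hd
  obtain ⟨h2, hh2, H2⟩ := H.a2_B_unif (hK.image hL.cont) hd
  refine ⟨min h1 h2, ⟨lt_min hh1.1 hh2.1, (min_le_left _ _).trans hh1.2⟩, ?_⟩
  intro h hh k κ hM hκ s hs0
  have m1 : h ∈ Ioc 0 h1 := ⟨hh.1, hh.2.trans (min_le_left _ _)⟩
  have m2 : h ∈ Ioc 0 h2 := ⟨hh.1, hh.2.trans (min_le_right _ _)⟩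
  have m0 : h ∈ Ioc (0 : ℝ) 1 := ⟨hh.1, m1.2.trans hh1.2⟩
  have ms := hs_mem m0 hs0.1
  have c1 : Continuous fun σ : ℝ => Sg (nu0 m Q.β) (s - σ) (g (h • zE k, κ, σ)) := by
    have h0 : Continuous fun σ : ℝ => (s - σ, g (h • zE k, κ, σ)) := by fun_prop
    simpa only [Function.comp_def] using (continuous_Sg (nu0 m Q.β)).comp h0
  have c2 := continuous_Eo (nu0 m Q.β) h s (H.continuous_Bd hh.1 (H.continuous_pc hL hh.1 k κ))
  have c3 : Continuous fun σ : ℝ => Dh (hs h s) (Sg (nu0 m Q.β) (s - σ) (g (h • zE k, κ, σ))) :=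
    (Dh (hs h s)).continuous.comp c1
  rw [Hat.df, hL.duh _ _ _ hs0.1, Duh]
  erw [← (Dh (hs h s)).intervalIntegral_comp_comm (c1.intervalIntegrable _ _)]
  rw [← intervalIntegral.integral_sub (c3.intervalIntegrable _ _) (c2.intervalIntegrable _ _)]
  refine (nm_integral (φ := fun _ => d + d) ms.1.le ms.2 hs0.1 (c3.fun_sub c2) continuousOn_const
    fun σ hσ => ?_).trans ?_
  · have mem : (h • zE k, κ, σ) ∈ Metric.closedBall (0 : E12) M ×ˢ Metric.closedBall (0 : ℂ) 1 ×ˢ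
        Icc (0 : ℝ) N := ⟨mem_closedBall_zero_iff.2 hM, mem_closedBall_zero_iff.2 hκ, hσ.1,
          hσ.2.trans hs0.2⟩
    have b1 := H1 h m1 _ (mem_image_of_mem _ mem) σ s hσ.1 hσ.2 hs0.2
    have b2 := (nm_Eo hν m0.1.le m0.2 hσ.1 hσ.2 _).trans
      (H2 _ (hs_mem m2 hσ.1) _ (mem_image_of_mem _ mem))
    refine le_trans (le_of_eq ?_) ((nm_add_le ms.1.le ms.2 _ _).trans (add_le_add b1 b2))
    have e : Real.exp (-σ / 2) • h • zE k = hs h σ • zE k := by rw [smul_smul, hs, mul_comm]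
    simp only [hg, Hat.pc, e, map_add, map_sub, H.Bd_add, H.Dh_b (hs_pos hh.1 σ), Hat.Eo_sgl]
    congr 1
    abel
  · rw [intervalIntegral.integral_const, sub_zero, smul_eq_mul, ← hdδ]
    exact mul_le_mul_of_nonneg_right (by linarith [hs0.2, le_abs_self N]) (by positivity)

end Vale.Agent.P139
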