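import Vale.Agent.P139.A2.TA

/-! P139 A2/Nm: the norms `nm h`, star, multipliers, plane waves.
Plan. Unfold `nm`, `wn`; summability is `a2_sum_h (co_SW x)`; equalities in `TA` by `co_ext` and `funext`.
`nm_scale`: `mul_smul`, `a2_Wt_scale`. `exists_trunc`: the coefficients of the difference vanish on `S` and equal
`co x n` off `S`; tail of a summable series (`summable_iff_vanishing`, `tendsto_tsum_compl_atTop_zero`, or
`Summable.sum_add_tsum_compl`). `co_NL`: induction, `pow_succ'`, `mul_assoc`, `co_mul`, `co_sT`. -/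

noncomputable section

open MeasureTheory Filter Topology Set Complex
open scoped ComplexConjugate RealInnerProductSpace

namespace Vale.Agent.P139

variable {h : ℝ}

theorem nm_nonneg (h : ℝ) (x : TA) : 0 ≤ nm h x :=
  tsum_nonneg fun _ => mul_nonneg (a2_Wt_pos _).le (norm_nonneg _)

theorem nm_zero (h : ℝ) : nm h 0 = 0 := by simp [nm, wn, co_zero]

theorem nm_add_le (h0 : 0 ≤ h) (h1 : h ≤ 1) (x y : TA) : nm h (x + y) ≤ nm h x + nm h y := by
  have sx := a2_sum_h (co_SW x) h0 h1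
  have sy := a2_sum_h (co_SW y) h0 h1
  unfold nm wn
  rw [← sx.tsum_add sy]
  refine Summable.tsum_le_tsum (fun n => ?_) (a2_sum_h (co_SW _) h0 h1) (sx.add sy)
  rw [← mul_add, co_add]
  exact mul_le_mul_of_nonneg_left (norm_add_le _ _) (a2_Wt_pos _).le

theorem nm_smul (h : ℝ) (a : ℂ) (x : TA) : nm h (a • x) = ‖a‖ * nm h x := by
  unfold nm wn
  rw [← tsum_mul_left, co_smul]
  refine tsum_congr fun n => ?_
  simp only [Pi.smul_apply, smul_eq_mul, norm_mul]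
  ring

theorem nm_rsmul (h a : ℝ) (x : TA) : nm h (a • x) = |a| * nm h x := by
  rw [← Complex.coe_smul, nm_smul, norm_real, Real.norm_eq_abs]

theorem nm_neg (h : ℝ) (x : TA) : nm h (-x) = nm h x := by simp [nm, wn, co_neg]

theorem nm_sub_le (h0 : 0 ≤ h) (h1 : h ≤ 1) (x y : TA) : nm h (x - y) ≤ nm h x + nm h y := by
  rw [sub_eq_add_neg, ← nm_neg h y]
  exact nm_add_le h0 h1 _ _

theorem nm_sub_comm (h : ℝ) (x y : TA) : nm h (x - y) = nm h (y - x) := by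
  rw [← nm_neg, neg_sub]

theorem nm_sum_le (h0 : 0 ≤ h) (h1 : h ≤ 1) {ι : Type} (S : Finset ι) (f : ι → TA) :
    nm h (∑ i ∈ S, f i) ≤ ∑ i ∈ S, nm h (f i) :=
  Finset.le_sum_of_subadditive (nm h) (nm_zero h).le (nm_add_le h0 h1) S f

theorem nm_mono {h' : ℝ} (h0 : 0 ≤ h') (hh : h' ≤ h) (h1 : h ≤ 1) (x : TA) :
    nm h' x ≤ nm h x :=
  Summable.tsum_le_tsum (fun _ => mul_le_mul_of_nonneg_right (a2_Wt_mono h0 hh _) (norm_nonneg _))
    (a2_sum_h (co_SW x) h0 (hh.trans h1)) (a2_sum_h (co_SW x) (h0.trans hh) h1)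

theorem nm_le_norm (h0 : 0 ≤ h) (h1 : h ≤ 1) (x : TA) : nm h x ≤ ‖x‖ := by
  rw [norm_eq_nm]
  exact nm_mono h0 h1 le_rfl x

theorem nm_scale {t : ℝ} (h0 : 0 ≤ h) (h1 : h ≤ 1) (ht : 1 ≤ t) (x : TA) :
    nm (t * h) x ≤ t ^ 20 * nm h x := by
  have sx := (a2_sum_h (co_SW x) h0 h1).mul_left (t ^ 20)
  have key : ∀ n, Wt ((t * h) • zE n) * ‖co x n‖ ≤ t ^ 20 * (Wt (h • zE n) * ‖co x n‖) := by
    intro n
    rw [mul_smul, ← mul_assoc]
    exact mul_le_mul_of_nonneg_right (a2_Wt_scale ht _) (norm_nonneg _)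
  unfold nm wn
  rw [← tsum_mul_left]
  exact Summable.tsum_le_tsum key (Summable.of_nonneg_of_le
    (fun _ => mul_nonneg (a2_Wt_pos _).le (norm_nonneg _)) key sx) sx

theorem nm_sT (h : ℝ) (x : TA) : nm h (sT x) = nm h x := by
  rw [nm, co_sT, a2_wn_st, nm]

theorem nm_Mu (h : ℝ) (θ : Z12 → ℝ) (x : TA) : nm h (Mu θ x) = nm h x := by
  simp only [nm, wn, co_Mu, norm_mul, mul_comm I, norm_exp_ofReal_mul_I, one_mul]

theorem nm_sgl (h : ℝ) (k : Z12) (a : ℂ) : nm h (sgl k a) = ‖a‖ * Wt (h • zE k) := by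
  rw [nm, co_sgl, a2_wn_single]

theorem sT_mul (x y : TA) : sT (x * y) = sT x * sT y :=
  co_ext (by rw [co_sT, co_mul, co_mul, co_sT, co_sT, a2_st_cv])

theorem sT_smul (a : ℂ) (x : TA) : sT (a • x) = conj a • sT x := co_ext (by
  funext n
  simp [co_sT, co_smul, st])

theorem sT_sgl (k : Z12) (a : ℂ) : sT (sgl k a) = sgl (-k) (conj a) := co_ext (by
  funext n
  rw [co_sT, co_sgl, co_sgl, st]
  by_cases hn : n = -k
  · subst hn
    simp
  · rw [Pi.single_eq_of_ne hn, Pi.single_eq_of_ne (fun e => hn (by rw [← e, neg_neg])), map_zero])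

theorem co_mul_sgl (x : TA) (k : Z12) (a : ℂ) (n : Z12) :
    co (x * sgl k a) n = a * co x (n - k) := by
  rw [co_mul, co_sgl, a2_cv_single]

theorem sgl_mul (k : Z12) (a b : ℂ) : sgl k (a * b) = a • sgl k b := co_ext (by
  funext n
  rw [co_smul, co_sgl, co_sgl, Pi.smul_apply]
  by_cases hn : n = k
  · subst hn
    simp
  · simp [Pi.single_eq_of_ne hn])

theorem Mu_sgl (θ : Z12 → ℝ) (k : Z12) (a : ℂ) :
    Mu θ (sgl k a) = sgl k (exp (I * θ k) * a) := co_ext (by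
  funext n
  rw [co_Mu, co_sgl, co_sgl]
  by_cases hn : n = k
  · subst hn
    simp
  · simp [Pi.single_eq_of_ne hn])

theorem Mu_Mu (θ θ' : Z12 → ℝ) (x : TA) : Mu θ (Mu θ' x) = Mu (fun n => θ n + θ' n) x :=
  co_ext (by
    funext n
    rw [co_Mu, co_Mu, co_Mu, ← mul_assoc, ← Complex.exp_add, ofReal_add, mul_add])

theorem Mu_zero (x : TA) : Mu (fun _ => 0) x = x := co_ext (by
  funext n
  simp [co_Mu])

theorem co_sum {ι : Type} (S : Finset ι) (f : ι → TA) (n : Z12) :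
    co (∑ i ∈ S, f i) n = ∑ i ∈ S, co (f i) n := by
  rw [← coL_apply, map_sum]
  rfl

theorem nm_sum_co (h0 : 0 ≤ h) (h1 : h ≤ 1) (x : TA) (S : Finset Z12) :
    ∑ k ∈ S, ‖co x k‖ * Wt (h • zE k) ≤ nm h x := by
  simp only [mul_comm ‖co x _‖]
  exact (a2_sum_h (co_SW x) h0 h1).sum_le_tsum S
    fun _ _ => mul_nonneg (a2_Wt_pos _).le (norm_nonneg _)

theorem nm_trunc (h0 : 0 ≤ h) (h1 : h ≤ 1) (x : TA) (S : Finset Z12) :
    nm h (∑ k ∈ S, sgl k (co x k)) ≤ nm h x := by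
  refine (nm_sum_le h0 h1 S _).trans ?_
  simp only [nm_sgl]
  exact nm_sum_co h0 h1 x S

theorem exists_trunc (x : TA) {δ : ℝ} (hδ : 0 < δ) :
    ∃ S : Finset Z12, ‖x - ∑ k ∈ S, sgl k (co x k)‖ ≤ δ := by
  classical
  have T := tendsto_tsum_compl_atTop_zero fun n => Wt ((1 : ℝ) • zE n) * ‖co x n‖
  obtain ⟨S, hS⟩ := (T.eventually (ge_mem_nhds hδ)).exists
  refine ⟨S, le_trans (le_of_eq ?_) hS⟩
  have e : ∀ n, co (x - ∑ k ∈ S, sgl k (co x k)) n = if n ∈ S then 0 else co x n := by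
    intro n
    rw [co_sub, Pi.sub_apply, co_sum]
    simp only [co_sgl, Pi.single_apply, Finset.sum_ite_eq]
    split_ifs <;> simp
  rw [norm_eq_nm, nm, wn]
  refine Eq.trans (tsum_congr fun n => ?_) (tsum_subtype {n | n ∉ S}
    fun n => Wt ((1 : ℝ) • zE n) * ‖co x n‖).symm
  rw [e, Set.indicator_apply]
  by_cases hn : n ∈ S <;> simp [hn]

theorem norm_tsum_co (h0 : 0 ≤ h) (h1 : h ≤ 1) (x : TA) : ‖∑' n, co x n‖ ≤ nm h x :=
  (norm_tsum_le_tsum_norm (a2_sum_norm (co_SW x))).trans (Summable.tsum_le_tsum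
    (fun _ => le_mul_of_one_le_left (norm_nonneg _) (a2_one_le_Wt _)) (a2_sum_norm (co_SW x))
    (a2_sum_h (co_SW x) h0 h1))

theorem tsum_co_sub (x y : TA) : ∑' n, co (x - y) n = ∑' n, co x n - ∑' n, co y n := by
  rw [co_sub]
  exact (a2_sum_norm (co_SW x)).of_norm.tsum_sub (a2_sum_norm (co_SW y)).of_norm

theorem co_NL (m : ℕ) (x : TA) : co (NL m x) = nlc m (co x) := by
  induction m with
  | zero => simp [NL, nlc]
  | succ m ih =>
    rw [nlc, ← ih, ← co_sT, ← co_mul, ← co_mul, NL, NL, pow_succ' _ m, mul_assoc (x * sT x)]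

theorem continuous_NL (m : ℕ) : Continuous (NL m) :=
  ((continuous_id.mul sT.continuous).pow m).mul continuous_id

end Vale.Agent.P139
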