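import Vale.Agent.P139.A2.Duh
import Vale.Agent.P139.A2.NL

/-! P139 A2/Resc: rescaling of a solution. -/

noncomputable section

open MeasureTheory Filter Topology Set Complex
open scoped ComplexConjugate RealInnerProductSpace

namespace Vale.Agent.P139

variable {m : ℕ} {Q : Prof m} (H : Hat Q)

theorem USol.cont {U : ℝ → TA} (hU : USol m U) (t : ℝ) :
    Continuous fun τ => Mu (fun n => -(nsq n * (t - τ))) (-I • NL m (U τ)) :=
  continuous_Mu (fun n => by fun_prop) (((continuous_NL m).comp hU.1).const_smul (-I))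

theorem a2_restart {U : ℝ → TA} (hU : USol m U) {t t' : ℝ} (ht : 0 ≤ t) (ht' : 0 ≤ t') :
    U t' = Mu (fun n => -(nsq n * (t' - t))) (U t) +
      ∫ τ in t..t', Mu (fun n => -(nsq n * (t' - τ))) (-I • NL m (U τ)) := by
  have e : Mu (fun n => -(nsq n * (t' - t))) (U t) = Mu (fun n => -(nsq n * t')) (U 0) +
      ∫ τ in (0 : ℝ)..t, Mu (fun n => -(nsq n * (t' - τ))) (-I • NL m (U τ)) := by
    rw [hU.2 t ht, map_add, Mu_Mu,
      ← (Mu _).intervalIntegral_comp_comm ((hU.cont t).intervalIntegrable _ _)]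
    simp only [Mu_Mu]
    congr 1
    · congr 2
      funext n
      ring
    · congr 1
      funext τ
      congr 2
      funext n
      ring
  rw [e, add_assoc, intervalIntegral.integral_add_adjacent_intervals
    ((hU.cont t').intervalIntegrable _ _) ((hU.cont t').intervalIntegrable _ _)]
  exact hU.2 t' ht'

theorem a2_norm_pow {L : ℝ} (hL : 0 < L) {ω : ℂ} (hω : ‖ω‖ = L ^ (2 * aa m)) (σ : ℝ) :
    ‖ω * exp (-nu0 m Q.β * σ)‖ ^ (2 * m) = L ^ 2 * Real.exp (-σ) := by
  have hm : (m : ℝ) ≠ 0 := Nat.cast_ne_zero.2 (by have := Q.m_pos; omega)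
  rw [norm_mul, mul_pow, hω, norm_exp, ← Real.rpow_natCast, ← Real.rpow_mul hL.le,
    ← Real.exp_nat_mul, ← Real.rpow_two]
  congr 2
  · simp only [aa, Nat.cast_mul, Nat.cast_ofNat]
    field_simp
  · simp only [mul_re, neg_re, a2_nu_re, ofReal_re, ofReal_im, mul_zero, sub_zero, aa,
      Nat.cast_mul, Nat.cast_ofNat]
    field_simp

theorem Hat.a2_resc {U : ℝ → TA} (hU : USol m U) {t L : ℝ} (ht : 0 ≤ t) (hL : 0 < L) {ω : ℂ}
    (hω : ‖ω‖ = L ^ (2 * aa m)) (x : E12) (N : ℝ) :
    H.Sol L N fun s => (ω * exp (-nu0 m Q.β * s)) •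
      Mu (fun n => ⟪zE n, x⟫) (U (t + L ^ 2 * (1 - Real.exp (-s)))) := by
  have cf : Continuous fun s : ℝ => t + L ^ 2 * (1 - Real.exp (-s)) := by fun_prop
  refine ⟨(by fun_prop : Continuous fun s : ℝ => ω * exp (-nu0 m Q.β * s)).smul
    ((Mu _).continuous.comp (hU.1.comp cf)), fun s hs0 => ?_⟩
  have h1 : Real.exp (-s) ≤ 1 := Real.exp_le_one_iff.2 (by linarith [hs0.1])
  have hd : ∀ σ : ℝ, HasDerivAt (fun s : ℝ => t + L ^ 2 * (1 - Real.exp (-s)))
      (L ^ 2 * Real.exp (-σ)) σ := fun σ => by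
    simpa using ((((hasDerivAt_neg σ).exp).const_sub 1).const_mul (L ^ 2)).const_add t
  have cg := hU.cont (t + L ^ 2 * (1 - Real.exp (-s)))
  have sub := intervalIntegral.integral_deriv_smul_comp (a := 0) (b := s) (fun σ _ => hd σ)
    (by fun_prop) cg
  simp only [neg_zero, Real.exp_zero, sub_self, mul_zero, add_zero] at sub
  have ci := ((by fun_prop : Continuous fun σ : ℝ => L ^ 2 * Real.exp (-σ)).fun_smul
    (cg.comp cf)).intervalIntegrable (μ := volume) 0 s
  beta_reduce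
  rw [a2_restart hU ht (t' := t + L ^ 2 * (1 - Real.exp (-s))) (by positivity), ← sub, map_add,
    smul_add, ← (Mu _).intervalIntegral_comp_comm ci, ← intervalIntegral.integral_smul, Duh]
  have e : ∀ a b c d e f k y : ℂ, a + b + c = d + e + f →
      ω * exp a * (exp b * (k * (exp c * y))) = exp d * (k * (ω * exp e) * (exp f * y)) := by
    intro a b c d e f k y h
    have : exp a * exp b * exp c = exp d * exp e * exp f := by
      rw [← exp_add, ← exp_add, h, exp_add, exp_add]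
    linear_combination ω * k * y * this
  congr 1
  · refine co_ext (funext fun n => ?_)
    simp only [co_Eo, co_smul, co_Mu, Pi.smul_apply, smul_eq_mul, neg_zero, Real.exp_zero,
      sub_self, mul_zero, add_zero]
    simpa only [one_mul] using e _ _ _ _ _ _ 1 _ (by push_cast; ring)
  · congr 1
    funext σ
    refine co_ext (funext fun n => ?_)
    simp only [NL_Mu, a2_norm_pow hL hω, ← Complex.coe_smul, Function.comp, map_smul, co_Eo,
      co_smul, co_Mu, Pi.smul_apply, smul_eq_mul]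
    have := e (-nu0 m Q.β * s) (I * (⟪zE n, x⟫ : ℝ)) (I * (-(nsq n * (t + L ^ 2 *
      (1 - Real.exp (-s)) - (t + L ^ 2 * (1 - Real.exp (-σ))))) : ℝ))
      (-nu0 m Q.β * (s - σ) - I * ((Real.exp (-σ) - Real.exp (-s)) * L ^ 2 * nsq n : ℝ))
      (-nu0 m Q.β * σ) (I * (⟪zE n, x⟫ : ℝ)) ((L ^ 2 * Real.exp (-σ) : ℝ))
      (co (NL m (U (t + L ^ 2 * (1 - Real.exp (-σ))))) n) (by push_cast; ring)
    linear_combination (-I) * this

end Vale.Agent.P139
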