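import Vale.Agent.P139.A0

/-! P139 A2/Seq: weights and convolution of sequences on `ℤ¹²`.
Plan. `Wt`: `norm_smul`, `pow_le_pow_left₀`. `a2_sum_h`: comparison with `SW` (`Summable.of_nonneg_of_le`).
`a2_cv_key`: for `0 ≤ h ≤ 1` the family `(k, j) ↦ (Wt (h k) ‖c k‖) (Wt (h j) ‖c' j‖)` is summable on the product
(`Summable.mul_of_nonneg`, `Summable.tsum_mul_tsum`); reindex by `(n, k) ↦ (k, n - k)` (an `Equiv`), use `Wt_add`
for `h n = h k + h (n - k)`, `norm_tsum_le_tsum_norm`, `Summable.prod`, `Summable.tsum_prod`.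
`a2_cv_assoc`: `Summable.tsum_comm'` or `tsum_prod'` for `(k, j) ↦ a j * b (k - j) * c (n - k)`, then shift
`k` by `Equiv.addRight j` / `Equiv.subRight`. `a2_cv_comm`: `Equiv.subLeft n`. `a2_sum_inv`: use
`(1 + ‖n‖ ^ 20)⁻¹ ≤ C ∏ j, (1 + n j ^ 2) ^ (-5/6)` and products of summable series (induction on the dimension),
or `ZLattice.summable_norm_rpow`, or count points in dyadic cubes. -/

noncomputable section

open MeasureTheory Filter Topology Set Complex
open scoped ComplexConjugate RealInnerProductSpace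

namespace Vale.Agent.P139

theorem a2_one_le_Wt (ξ : E12) : 1 ≤ Wt ξ := le_add_of_nonneg_right (by positivity)

theorem a2_Wt_pos (ξ : E12) : 0 < Wt ξ := lt_of_lt_of_le one_pos (a2_one_le_Wt ξ)

theorem a2_Wt_neg (ξ : E12) : Wt (-ξ) = Wt ξ := by simp [Wt]

theorem a2_Wt_mono {s t : ℝ} (hs : 0 ≤ s) (h : s ≤ t) (ξ : E12) : Wt (s • ξ) ≤ Wt (t • ξ) := by
  unfold Wt
  rw [norm_smul, norm_smul, Real.norm_of_nonneg hs, Real.norm_of_nonneg (hs.trans h)]
  gcongr

theorem a2_Wt_scale {t : ℝ} (ht : 1 ≤ t) (ξ : E12) : Wt (t • ξ) ≤ t ^ 20 * Wt ξ := by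
  unfold Wt
  rw [norm_smul, Real.norm_of_nonneg (zero_le_one.trans ht), mul_pow, mul_add, mul_one]
  have := one_le_pow₀ (n := 20) ht
  linarith

theorem a2_continuous_Wt : Continuous Wt := by
  unfold Wt
  fun_prop

theorem a2_zE_add (n k : Z12) : zE (n + k) = zE n + zE k := by
  ext j
  simp [zE]

theorem a2_zE_sub (n k : Z12) : zE (n - k) = zE n - zE k := by
  ext j
  simp [zE]

theorem a2_zE_neg (n : Z12) : zE (-n) = -zE n := by
  ext j
  simp [zE]

theorem a2_norm_zE (n : Z12) : ‖zE n‖ ^ 2 = nsq n := by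
  rw [EuclideanSpace.real_norm_sq_eq]
  simp [zE, nsq]

theorem a2_sum_h {c : Z12 → ℂ} (hc : SW c) {h : ℝ} (h0 : 0 ≤ h) (h1 : h ≤ 1) :
    Summable fun n => Wt (h • zE n) * ‖c n‖ := by
  refine Summable.of_nonneg_of_le (fun n => mul_nonneg (a2_Wt_pos _).le (norm_nonneg _))
    (fun n => ?_) hc
  have := a2_Wt_mono h0 h1 (zE n)
  rw [one_smul] at this
  gcongr

theorem a2_sum_norm {c : Z12 → ℂ} (hc : SW c) : Summable fun n => ‖c n‖ :=
  Summable.of_nonneg_of_le (fun _ => norm_nonneg _)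
    (fun _ => le_mul_of_one_le_left (norm_nonneg _) (a2_one_le_Wt _)) hc

theorem a2_SW_add {c c' : Z12 → ℂ} (hc : SW c) (hc' : SW c') : SW (c + c') := by
  refine Summable.of_nonneg_of_le (fun n => mul_nonneg (a2_Wt_pos _).le (norm_nonneg _))
    (fun n => ?_) (Summable.add hc hc')
  rw [← mul_add]
  exact mul_le_mul_of_nonneg_left (norm_add_le _ _) (a2_Wt_pos _).le

theorem a2_SW_smul (a : ℂ) {c : Z12 → ℂ} (hc : SW c) : SW (a • c) := by
  refine (Summable.mul_left ‖a‖ hc).congr fun n => ?_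
  simp only [Pi.smul_apply, smul_eq_mul, norm_mul]
  ring

theorem a2_SW_le {c c' : Z12 → ℂ} (hc : SW c) (h : ∀ n, ‖c' n‖ ≤ ‖c n‖) : SW c' :=
  Summable.of_nonneg_of_le (fun _ => mul_nonneg (a2_Wt_pos _).le (norm_nonneg _))
    (fun n => mul_le_mul_of_nonneg_left (h n) (a2_Wt_pos _).le) hc

theorem a2_SW_single (k : Z12) (a : ℂ) : SW (Pi.single k a) := by
  refine summable_of_ne_finset_zero (s := {k}) fun n hn => ?_
  rw [Finset.mem_singleton] at hn
  simp [Pi.single_eq_of_ne hn]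

theorem a2_SW_st {c : Z12 → ℂ} (hc : SW c) : SW (st c) := by
  refine ((Equiv.neg Z12).summable_iff.2 hc).congr fun n => ?_
  simp [st, a2_zE_neg, a2_Wt_neg]

theorem a2_wn_st (h : ℝ) (c : Z12 → ℂ) : wn h (st c) = wn h c := by
  unfold wn
  rw [← (Equiv.neg Z12).tsum_eq]
  refine tsum_congr fun n => ?_
  simp [st, a2_zE_neg, a2_Wt_neg]

theorem a2_wn_single (h : ℝ) (k : Z12) (a : ℂ) :
    wn h (Pi.single k a) = ‖a‖ * Wt (h • zE k) := by
  unfold wn
  rw [tsum_eq_single k fun n hn => by simp [Pi.single_eq_of_ne hn]]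
  simp [mul_comm]

/-- The shear `(n, k) ↦ (k, n - k)`. -/
def a2Sh : Z12 × Z12 ≃ Z12 × Z12 where
  toFun p := (p.2, p.1 - p.2)
  invFun p := (p.1 + p.2, p.1)
  left_inv p := by simp
  right_inv p := by simp

theorem a2_sh_sum {f g : Z12 → ℝ} (hf : Summable f) (hg : Summable g) (f0 : ∀ n, 0 ≤ f n)
    (g0 : ∀ n, 0 ≤ g n) : HasSum (fun p : Z12 × Z12 => f p.2 * g (p.1 - p.2))
      ((∑' n, f n) * ∑' n, g n) := by
  have h1 := hf.mul_of_nonneg hg f0 g0
  rw [hf.tsum_mul_tsum hg h1]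
  exact a2Sh.hasSum_iff.2 h1.hasSum

theorem a2_cv_sum {c c' : Z12 → ℂ} (hc : SW c) (hc' : SW c') (n : Z12) :
    Summable fun k => ‖c k * c' (n - k)‖ := by
  have h := (a2_sh_sum (a2_sum_norm hc) (a2_sum_norm hc') (fun _ => norm_nonneg _)
    fun _ => norm_nonneg _).summable.prod_factor n
  simpa using h

theorem a2_cv_key {c c' : Z12 → ℂ} (hc : SW c) (hc' : SW c') {h : ℝ} (h0 : 0 ≤ h) (h1 : h ≤ 1) :
    (Summable fun n => Wt (h • zE n) * ‖cv c c' n‖) ∧
      wn h (cv c c') ≤ 2 ^ 20 * (wn h c * wn h c') := by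
  have H := a2_sh_sum (a2_sum_h hc h0 h1) (a2_sum_h hc' h0 h1)
    (fun _ => mul_nonneg (a2_Wt_pos _).le (norm_nonneg _))
    fun _ => mul_nonneg (a2_Wt_pos _).le (norm_nonneg _)
  have H2 := H.summable.prod
  have H3 := H.summable.tsum_prod
  rw [H.tsum_eq] at H3
  have key : ∀ n, Wt (h • zE n) * ‖cv c c' n‖ ≤
      2 ^ 20 * ∑' k, Wt (h • zE k) * ‖c k‖ * (Wt (h • zE (n - k)) * ‖c' (n - k)‖) := by
    intro n
    have s1 := a2_cv_sum hc hc' n
    have s2 := H.summable.prod_factor n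
    calc Wt (h • zE n) * ‖cv c c' n‖ ≤ Wt (h • zE n) * ∑' k, ‖c k * c' (n - k)‖ :=
          mul_le_mul_of_nonneg_left (norm_tsum_le_tsum_norm s1) (a2_Wt_pos _).le
      _ = ∑' k, Wt (h • zE n) * ‖c k * c' (n - k)‖ := tsum_mul_left.symm
      _ ≤ ∑' k, 2 ^ 20 * (Wt (h • zE k) * ‖c k‖ * (Wt (h • zE (n - k)) * ‖c' (n - k)‖)) := by
          refine Summable.tsum_le_tsum (fun k => ?_) (s1.mul_left _) (s2.mul_left _)
          have e : h • zE n = h • zE k + h • zE (n - k) := by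
            rw [← smul_add, ← a2_zE_add, add_sub_cancel]
          have w := Wt_add (h • zE k) (h • zE (n - k))
          rw [← e] at w
          rw [norm_mul]
          calc _ ≤ 2 ^ 20 * (Wt (h • zE k) * Wt (h • zE (n - k))) * (‖c k‖ * ‖c' (n - k)‖) :=
                mul_le_mul_of_nonneg_right w (by positivity)
            _ = _ := by ring
      _ = _ := tsum_mul_left
  have S : Summable fun n => Wt (h • zE n) * ‖cv c c' n‖ :=
    Summable.of_nonneg_of_le (fun _ => mul_nonneg (a2_Wt_pos _).le (norm_nonneg _)) key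
      (H2.mul_left _)
  refine ⟨S, ?_⟩
  unfold wn
  rw [H3, ← tsum_mul_left]
  exact Summable.tsum_le_tsum key S (H2.mul_left _)

theorem a2_SW_cv {c c' : Z12 → ℂ} (hc : SW c) (hc' : SW c') : SW (cv c c') := by
  have h := (a2_cv_key hc hc' zero_le_one le_rfl).1
  simpa [SW] using h

theorem a2_wn_cv {c c' : Z12 → ℂ} (hc : SW c) (hc' : SW c') {h : ℝ} (h0 : 0 ≤ h) (h1 : h ≤ 1) :
    wn h (cv c c') ≤ 2 ^ 20 * (wn h c * wn h c') := (a2_cv_key hc hc' h0 h1).2

theorem a2_cv_comm (c c' : Z12 → ℂ) : cv c c' = cv c' c := by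
  funext n
  unfold cv
  rw [← (Equiv.subLeft n).tsum_eq]
  refine tsum_congr fun k => ?_
  simp [mul_comm]

theorem a2_cv_add {a b c : Z12 → ℂ} (ha : SW a) (hb : SW b) (hc : SW c) :
    cv a (b + c) = cv a b + cv a c := by
  funext n
  simp only [cv, Pi.add_apply, mul_add]
  exact (a2_cv_sum ha hb n).of_norm.tsum_add (a2_cv_sum ha hc n).of_norm

theorem a2_cv_smul (z : ℂ) (a b : Z12 → ℂ) : cv a (z • b) = z • cv a b := by
  funext n
  simp only [cv, Pi.smul_apply, smul_eq_mul]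
  rw [← tsum_mul_left]
  exact tsum_congr fun k => by ring

theorem a2_cv_assoc {a b c : Z12 → ℂ} (ha : SW a) (hb : SW b) (hc : SW c) :
    cv (cv a b) c = cv a (cv b c) := by
  funext n
  have H := (a2_sh_sum (a2_sum_norm ha) (a2_sum_norm hb) (fun _ => norm_nonneg _)
    fun _ => norm_nonneg _).summable
  have hcs := a2_sum_norm hc
  have S : Summable fun p : Z12 × Z12 => a p.2 * b (p.1 - p.2) * c (n - p.1) := by
    refine Summable.of_norm_bounded (H.mul_right (∑' k, ‖c k‖)) fun p => ?_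
    rw [norm_mul, norm_mul]
    exact mul_le_mul_of_nonneg_left (hcs.le_tsum _ fun _ _ => norm_nonneg _) (by positivity)
  have e1 : cv (cv a b) c n = ∑' k, ∑' j, a j * b (k - j) * c (n - k) := by
    unfold cv
    exact tsum_congr fun k => tsum_mul_right.symm
  rw [e1, ← Summable.tsum_comm (f := fun k j => a j * b (k - j) * c (n - k)) S]
  unfold cv
  refine tsum_congr fun j => ?_
  rw [← tsum_mul_left, ← (Equiv.addRight j).tsum_eq]
  refine tsum_congr fun k => ?_
  simp only [Equiv.coe_addRight, add_sub_cancel_right]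
  rw [mul_assoc, show n - (k + j) = n - j - k by abel]

theorem a2_cv_single (a : Z12 → ℂ) (k : Z12) (z : ℂ) (n : Z12) :
    cv a (Pi.single k z) n = z * a (n - k) := by
  unfold cv
  rw [tsum_eq_single (n - k) fun j hj => ?_]
  · simp [mul_comm]
  · rw [Pi.single_eq_of_ne, mul_zero]
    intro h
    exact hj (by rw [← h]; abel)

theorem a2_st_cv (a b : Z12 → ℂ) : st (cv a b) = cv (st a) (st b) := by
  funext n
  simp only [st, cv]
  rw [conj_tsum, ← (Equiv.neg Z12).tsum_eq]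
  refine tsum_congr fun k => ?_
  simp only [Equiv.neg_apply, map_mul]
  rw [show -n - -k = -(n - k) by abel]

theorem a2_sum_inv : Summable fun n : Z12 => (Wt (zE n))⁻¹ := by
  set g : ℤ → ℝ := fun k => 1 / |(k : ℝ) + 1 / 2| ^ (3 / 2 : ℝ) with hg
  have gs : Summable g := (Real.summable_one_div_int_add_rpow _ _).2 (by norm_num)
  have g0 : ∀ k, 0 ≤ g k := fun k => by positivity
  have P : Summable fun n : Z12 => ∏ j, g (n j) := by
    refine summable_of_sum_le (fun n => Finset.prod_nonneg fun j _ => g0 _)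
      (c := ∏ _j : Fin 12, ∑' k, g k) fun S => ?_
    calc ∑ n ∈ S, ∏ j, g (n j)
        ≤ ∑ n ∈ Fintype.piFinset fun j => S.image fun n => n j, ∏ j, g (n j) := by
          refine Finset.sum_le_sum_of_subset_of_nonneg (fun n hn => ?_)
            fun n _ _ => Finset.prod_nonneg fun j _ => g0 _
          exact Fintype.mem_piFinset.2 fun j => Finset.mem_image_of_mem _ hn
      _ = ∏ j : Fin 12, ∑ k ∈ S.image fun n => n j, g k := (Finset.prod_univ_sum _ _).symm
      _ ≤ _ := Finset.prod_le_prod (fun j _ => Finset.sum_nonneg fun k _ => g0 k)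
          fun j _ => gs.sum_le_tsum _ fun k _ => g0 k
  refine Summable.of_nonneg_of_le (fun n => inv_nonneg.2 (a2_Wt_pos _).le) (fun n => ?_)
    (P.mul_left (2 ^ 19))
  set r := ‖zE n‖ with hr
  have r0 : 0 ≤ r := norm_nonneg _
  have h1 : ∀ j, 1 / (1 + r) ^ (3 / 2 : ℝ) ≤ g (n j) := by
    intro j
    have a1 : |(n j : ℝ)| ≤ r := by
      exact PiLp.norm_apply_le (zE n) j
    have a2 : 0 < |(n j : ℝ) + 1 / 2| := by
      rw [abs_pos]
      intro h
      have h2 : ((2 * n j + 1 : ℤ) : ℝ) = 0 := by push_cast; linarith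
      have h3 : 2 * n j + 1 = 0 := by exact_mod_cast h2
      omega
    have a3 : |(n j : ℝ) + 1 / 2| ≤ 1 + r := by
      refine (abs_add_le _ _).trans ?_
      rw [abs_of_pos (show (0 : ℝ) < 1 / 2 by norm_num)]
      linarith
    exact one_div_le_one_div_of_le (by positivity) (Real.rpow_le_rpow a2.le a3 (by norm_num))
  have h2 : (1 / (1 + r) ^ (3 / 2 : ℝ)) ^ 12 ≤ ∏ j, g (n j) := by
    have := Finset.prod_le_prod (s := Finset.univ) (fun j _ => by positivity) fun j _ => h1 j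
    simpa using this
  have h3 : (1 / (1 + r) ^ (3 / 2 : ℝ)) ^ 12 = 1 / (1 + r) ^ 18 := by
    rw [one_div_pow, ← Real.rpow_natCast, ← Real.rpow_mul (by positivity)]
    norm_num
  have h4 : (1 + r) ^ 18 ≤ 2 ^ 19 * Wt (zE n) := by
    have a1 : (1 + r) ^ 18 ≤ (1 + r) ^ 20 := pow_le_pow_right₀ (by linarith) (by norm_num)
    have a2 := add_pow_le zero_le_one r0 20
    unfold Wt
    norm_num at a2 ⊢
    linarith
  have w := a2_Wt_pos (zE n)
  rw [h3] at h2
  refine le_trans ?_ (mul_le_mul_of_nonneg_left h2 (by positivity))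
  rw [mul_one_div, inv_eq_one_div, div_le_div_iff₀ w (by positivity)]
  linarith

end Vale.Agent.P139
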