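import Vale.Agent.P139.A2.Unif

/-! P139 A2/Stat: the discretised profile almost solves the rescaled equation. -/

noncomputable section

open MeasureTheory Filter Topology Set Complex
open scoped ComplexConjugate RealInnerProductSpace

namespace Vale.Agent.P139

variable {m : ℕ} {Q : Prof m} (H : Hat Q)

theorem Hat.a2_stat (N : ℝ) {δ : ℝ} (hδ : 0 < δ) : ∃ h0 ∈ Ioc (0 : ℝ) 1, ∀ h ∈ Ioc 0 h0,
    ∀ s ∈ Icc 0 N, nm (hs h s) (Dh (hs h s) H.q - (Eo (nu0 m Q.β) h s 0 (Dh h H.q) +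
      Duh (nu0 m Q.β) h (fun σ => -I • NL m (Dh (hs h σ) H.q)) s)) ≤ δ := by
  have hν := a2_nu_nonneg m Q.β
  obtain ⟨d, hd, hdδ⟩ : ∃ d, 0 < d ∧ d + |N| * (d + d) = δ :=
    ⟨δ / (2 * |N| + 1), by positivity, by field_simp; ring⟩
  obtain ⟨h1, hh1, H1⟩ := a2_Sg_unif hν (toFinite {H.q, -I • nlA m H.q}).isCompact N hd
  obtain ⟨h2, hh2, H2⟩ := ((a2_ap_nl m H.q).smul (-I)).le hd
  refine ⟨min h1 h2, ⟨lt_min hh1.1 hh2.1, (min_le_left _ _).trans hh1.2⟩, fun h hh s hs0 => ?_⟩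
  have m1 : h ∈ Ioc 0 h1 := ⟨hh.1, hh.2.trans (min_le_left _ _)⟩
  have m2 : h ∈ Ioc 0 h2 := ⟨hh.1, hh.2.trans (min_le_right _ _)⟩
  have m0 : h ∈ Ioc (0 : ℝ) 1 := ⟨hh.1, m1.2.trans hh1.2⟩
  have ms := hs_mem m0 hs0.1
  have c1 : Continuous fun σ : ℝ => Sg (nu0 m Q.β) (s - σ) (-I • nlA m H.q) := by
    have h0 : Continuous fun σ : ℝ => (s - σ, -I • nlA m H.q) := by fun_prop
    simpa only [Function.comp_def] using (continuous_Sg (nu0 m Q.β)).comp h0
  have c2 := continuous_Eo (nu0 m Q.β) h s (f := fun σ => -I • NL m (Dh (hs h σ) H.q))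
    (((continuous_NL m).comp (continuous_Dh hh.1 continuous_const)).const_smul (-I))
  have c3 : Continuous fun σ : ℝ => Dh (hs h s) (Sg (nu0 m Q.β) (s - σ) (-I • nlA m H.q)) :=
    (Dh (hs h s)).continuous.comp c1
  have b1 := H1 h m1 H.q (by simp) 0 s le_rfl hs0.1 hs0.2
  rw [sub_zero, hs_zero] at b1
  have b2 := nm_integral (φ := fun _ => d + d) ms.1.le ms.2 hs0.1 (c3.fun_sub c2)
    continuousOn_const fun σ hσ => by
      have b3 := H1 h m1 (-I • nlA m H.q) (by simp) σ s hσ.1 hσ.2 hs0.2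
      have b4 := (nm_Eo hν m0.1.le m0.2 hσ.1 hσ.2 _).trans (H2 _ (hs_mem m2 hσ.1))
      have := (nm_add_le ms.1.le ms.2 _ _).trans (add_le_add b3 b4)
      rwa [map_sub (Eo _ _ _ _), sub_add_sub_cancel] at this
  rw [intervalIntegral.integral_sub (c3.intervalIntegrable _ _) (c2.intervalIntegrable _ _),
    (Dh (hs h s)).intervalIntegral_comp_comm (c1.intervalIntegrable _ _),
    intervalIntegral.integral_const, sub_zero, smul_eq_mul] at b2
  have := (nm_add_le ms.1.le ms.2 _ _).trans (add_le_add b1 b2)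
  rw [sub_add_sub_comm, ← map_add, ← H.stat s] at this
  refine this.trans ?_
  rw [← hdδ]
  exact add_le_add le_rfl (mul_le_mul_of_nonneg_right (hs0.2.trans (le_abs_self N)) (by positivity))

end Vale.Agent.P139
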