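import Vale.Agent.P139.A2.Lin
import Vale.Agent.P139.A2.Dec
import Vale.Agent.P139.A2.Resc

/-! P139 A2/Step: one renormalisation step. -/

noncomputable section

open MeasureTheory Filter Topology Set Complex
open scoped ComplexConjugate RealInnerProductSpace

namespace Vale.Agent.P139

variable {m : ℕ} {Q : Prof m} (H : Hat Q)

theorem a2_hs_rpow {h : ℝ} (h0 : 0 < h) (s a : ℝ) :
    hs h s ^ (2 * a) = h ^ (2 * a) * Real.exp (-a * s) := by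
  rw [hs, Real.mul_rpow h0.le (Real.exp_pos _).le, ← Real.exp_mul]
  congr 2
  ring

theorem Hat.a2_step (h : ∀ ε : ℝ, 0 < ε →
    ∃ (N C : ℝ) (Z : E12 → ℂ → ℝ → AA), 1 ≤ N ∧ Real.exp (-aa m * N) ≤ ε ∧ H.Lin N C ε Z)
    {ε0 : ℝ} (hε0 : 0 < ε0) : ∃ ε ∈ Ioc 0 ε0, ∃ L0 ∈ Ioc (0 : ℝ) 1, ∀ U, USol m U → ∀ t L, 0 ≤ t →
      L ∈ Ioc 0 L0 → H.State U ε t L → ∃ t' L', t ≤ t' ∧ t' ≤ t + L ^ 2 ∧ 0 < L' ∧
        L' ≤ L * Real.exp (-1 / 4) ∧ H.State U ε t' L' := by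
  obtain ⟨N, C, Z, hN, hNe, hL⟩ := h (1 / 2 ^ 73) (by positivity)
  have hN0 : 0 ≤ N := zero_le_one.trans hN
  obtain ⟨K, ε1, hK, hε1, hlin⟩ := H.a2_lin hL hN0
  have hC := abs_nonneg C
  obtain ⟨δ1, hδ1, hδC⟩ : ∃ δ1 : ℝ, 0 < δ1 ∧ δ1 * (|C| + 1) = 1 / 2 ^ 12 :=
    ⟨1 / 2 ^ 12 / (|C| + 1), by positivity, by field_simp⟩
  obtain ⟨r, hr, hrem⟩ := H.a2_remod hδ1
  have hr0 := hr.1
  obtain ⟨ε, hε, e0, e1, e2, e3⟩ : ∃ ε : ℝ, 0 < ε ∧ ε ≤ ε0 ∧ ε ≤ ε1 ∧ |C| * ε ≤ r ∧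
      K * ε ≤ 1 / 2 ^ 12 := by
    have f : ∀ A B : ℝ, 0 ≤ A → 0 < B → ∀ e, e ≤ B / (A + 1) → 0 < e → A * e ≤ B := by
      intro A B hA hB e he h0
      rw [le_div_iff₀ (by positivity)] at he
      nlinarith
    have p : 0 < min (min ε0 ε1) (min (r / (|C| + 1)) (1 / 2 ^ 12 / (K + 1))) := by positivity
    exact ⟨_, p, (min_le_left _ _).trans (min_le_left _ _),
      (min_le_left _ _).trans (min_le_right _ _),
      f _ _ hC hr0 _ ((min_le_right _ _).trans (min_le_left _ _)) p,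
      f _ _ hK (by positivity) _ ((min_le_right _ _).trans (min_le_right _ _)) p⟩
  have hδ : 0 < ε / 2 ^ 13 := by positivity
  obtain ⟨h1, hh1, H1⟩ := hlin ε ⟨hε, e1⟩ _ hδ
  obtain ⟨h2, hh2, H2⟩ := hrem _ hδ
  refine ⟨ε, ⟨hε, e0⟩, min h1 h2, ⟨lt_min hh1.1 hh2.1, (min_le_left _ _).trans hh1.2⟩, ?_⟩
  rintro U hU t L ht hL0 ⟨ω, x, hω, hst⟩
  have m1 : L ∈ Ioc 0 h1 := ⟨hL0.1, hL0.2.trans (min_le_left _ _)⟩
  have m2 : L ∈ Ioc 0 h2 := ⟨hL0.1, hL0.2.trans (min_le_right _ _)⟩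
  have m0 : L ∈ Ioc (0 : ℝ) 1 := ⟨hL0.1, m1.2.trans hh1.2⟩
  have hV := H.a2_resc hU ht hL0.1 hω x N
  set V : ℝ → TA := fun s => (ω * exp (-nu0 m Q.β * s)) •
    Mu (fun n => ⟪zE n, x⟫) (U (t + L ^ 2 * (1 - Real.exp (-s)))) with hVd
  have hV0 : nm L (V 0 - Dh L H.q) ≤ ε := by simpa [hVd] using hst
  obtain ⟨S, hS⟩ := H1 L m1 V hV hV0
  obtain ⟨c0, c1, y, hc, hy⟩ := H.a2_dec hL hN0 hNe m0 (V 0 - Dh L H.q) S
  have hc' := hc.trans (mul_le_mul_of_nonneg_left hV0 hC)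
  have mN := hs_mem m0 hN0
  have hb : nm (hs L N) (V N - Dh (hs L N) H.q - Dh (hs L N) (H.mode c0 c1 y)) ≤
      K * ε ^ 2 + ε / 2 ^ 13 + 2 ^ 61 * (1 / 2 ^ 73) * ε := by
    have := (nm_add_le mN.1.le mN.2 _ _).trans (add_le_add hS
      (hy.trans (mul_le_mul_of_nonneg_left hV0 (by positivity))))
    rwa [sub_add_sub_cancel] at this
  have fin := H2 _ (hs_mem m2 hN0) c0 c1 y (hc'.trans e2) _ _ hb
  have hex : Real.exp (-N) ≤ 1 := Real.exp_le_one_iff.2 (by linarith)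
  have hex0 := Real.exp_pos (-N)
  have hL2 := sq_nonneg L
  refine ⟨t + L ^ 2 * (1 - Real.exp (-N)), hs (hs L N) c1, by nlinarith, by nlinarith,
    hs_pos mN.1 _, ?_, exp (-(I * c0 + nu0 m Q.β * c1)) * (ω * exp (-nu0 m Q.β * N)),
    x - hs (hs L N) c1 • y, ?_, ?_⟩
  · rw [hs, hs, mul_assoc, ← Real.exp_add]
    refine mul_le_mul_of_nonneg_left (Real.exp_le_exp.2 ?_) hL0.1.le
    have := neg_abs_le c1
    have := abs_nonneg c0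
    have := norm_nonneg y
    linarith [hr.2]
  · rw [a2_hs_rpow mN.1, a2_hs_rpow hL0.1, norm_mul, norm_mul, hω, norm_exp, norm_exp, mul_comm]
    simp [a2_nu_re]
  · refine le_trans (le_of_eq ?_) (fin.trans ?_)
    · congr 2
      simp only [hVd, map_smul, Mu_Mu, smul_smul, inner_sub_right, inner_smul_right]
      congr 3
      funext n
      ring
    · have g1 : δ1 * (|c0| + |c1| + ‖y‖) ≤ 1 / 2 ^ 12 * ε := by
        refine (mul_le_mul_of_nonneg_left hc' hδ1.le).trans ?_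
        rw [← hδC]
        nlinarith [mul_pos hδ1 hε]
      have g2 : K * ε ^ 2 ≤ 1 / 2 ^ 12 * ε := by nlinarith
      linarith

end Vale.Agent.P139
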