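import Vale.Agent.P139.A2.Seq

/-! P139 A2/TA (definitions, owner helper79, frozen): the weighted Wiener algebra of the torus as a
Banach space `TA` with a commutative ring structure. -/

noncomputable section

open MeasureTheory Filter Topology Set Complex
open scoped ComplexConjugate RealInnerProductSpace

namespace Vale.Agent.P139

/-- Weighted coefficients. -/
def TA : Type := lp (fun _ : Z12 => ℂ) 1

instance : NormedAddCommGroup TA := inferInstanceAs (NormedAddCommGroup (lp (fun _ : Z12 => ℂ) 1))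
instance : NormedSpace ℂ TA := inferInstanceAs (NormedSpace ℂ (lp (fun _ : Z12 => ℂ) 1))
instance : CompleteSpace TA := inferInstanceAs (CompleteSpace (lp (fun _ : Z12 => ℂ) 1))

/-- The underlying element of `lp`. -/
def TA.raw (x : TA) : lp (fun _ : Z12 => ℂ) 1 := x

/-- Fourier coefficients. -/
def co (x : TA) (n : Z12) : ℂ := x.raw n / (Wt (zE n) : ℂ)

theorem a2_Wt_ne (ξ : E12) : (Wt ξ : ℂ) ≠ 0 := ofReal_ne_zero.2 (a2_Wt_pos ξ).ne'

theorem a2_norm_raw (x : TA) (n : Z12) : ‖x.raw n‖ = Wt (zE n) * ‖co x n‖ := by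
  rw [co, norm_div, norm_real, Real.norm_of_nonneg (a2_Wt_pos _).le,
    mul_div_cancel₀ _ (a2_Wt_pos _).ne']

/-- The element with given coefficients. -/
def mkT (c : Z12 → ℂ) (h : SW c) : TA :=
  (⟨fun n => (Wt (zE n) : ℂ) * c n, memℓp_gen (by
    simpa [SW, abs_of_pos (a2_Wt_pos _)] using h)⟩ : lp (fun _ : Z12 => ℂ) 1)

theorem co_mkT (c : Z12 → ℂ) (h : SW c) : co (mkT c h) = c := by
  funext n
  exact mul_div_cancel_left₀ _ (a2_Wt_ne _)

theorem co_SW (x : TA) : SW (co x) := by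
  have h := (lp.memℓp x.raw).summable (by simp)
  simpa [SW, a2_norm_raw] using h

theorem co_ext {x y : TA} (h : co x = co y) : x = y := by
  refine (lp.ext (funext fun n => ?_) : x.raw = y.raw)
  exact (div_left_inj' (a2_Wt_ne _)).1 (congrFun h n)

theorem co_add (x y : TA) : co (x + y) = co x + co y := by
  funext n
  exact add_div _ _ _

theorem co_smul (a : ℂ) (x : TA) : co (a • x) = a • co x := by
  funext n
  exact mul_div_assoc _ _ _

theorem co_zero : co 0 = 0 := by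
  funext n
  exact zero_div _

theorem co_neg (x : TA) : co (-x) = -co x := by
  funext n
  exact neg_div _ _

theorem co_sub (x y : TA) : co (x - y) = co x - co y := by
  rw [sub_eq_add_neg, co_add, co_neg, sub_eq_add_neg]

/-- The norm at mesh size `h`. -/
def nm (h : ℝ) (x : TA) : ℝ := wn h (co x)

theorem norm_eq_nm (x : TA) : ‖x‖ = nm 1 x := by
  have h := lp.norm_eq_tsum_rpow (p := 1) (by simp) x.raw
  show ‖x.raw‖ = _
  simpa [nm, wn, a2_norm_raw] using h

instance : Mul TA := ⟨fun x y => mkT (cv (co x) (co y)) (a2_SW_cv (co_SW x) (co_SW y))⟩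

/-- A plane wave. -/
def sgl (k : Z12) (a : ℂ) : TA := mkT (Pi.single k a) (a2_SW_single k a)

instance : One TA := ⟨sgl 0 1⟩

theorem co_mul (x y : TA) : co (x * y) = cv (co x) (co y) := co_mkT _ _

theorem co_sgl (k : Z12) (a : ℂ) : co (sgl k a) = Pi.single k a := co_mkT _ _

theorem a2_mul_comm (x y : TA) : x * y = y * x := co_ext (by rw [co_mul, co_mul, a2_cv_comm])

theorem a2_mul_add (x y z : TA) : x * (y + z) = x * y + x * z :=
  co_ext (by rw [co_mul, co_add, co_add, co_mul, co_mul, a2_cv_add (co_SW _) (co_SW _) (co_SW _)])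

theorem a2_mul_smul (a : ℂ) (x y : TA) : x * (a • y) = a • (x * y) :=
  co_ext (by rw [co_mul, co_smul, co_smul, co_mul, a2_cv_smul])

theorem a2_mul_one (x : TA) : x * 1 = x := co_ext (by
  funext n
  rw [co_mul, show co 1 = Pi.single 0 1 from co_sgl 0 1, a2_cv_single, one_mul, sub_zero])

theorem a2_mul_zero (x : TA) : x * 0 = 0 := by
  have h := a2_mul_smul 0 x 0
  rwa [zero_smul, zero_smul] at h

instance : CommRing TA :=
  { (inferInstance : AddCommGroup TA), (inferInstance : Mul TA), (inferInstance : One TA) with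
    mul_assoc := fun x y z => co_ext (by
      rw [co_mul, co_mul, co_mul, co_mul, a2_cv_assoc (co_SW _) (co_SW _) (co_SW _)])
    mul_comm := a2_mul_comm
    left_distrib := a2_mul_add
    right_distrib := fun x y z => by
      rw [a2_mul_comm, a2_mul_add, a2_mul_comm z, a2_mul_comm z]
    zero_mul := fun x => by rw [a2_mul_comm, a2_mul_zero]
    mul_zero := a2_mul_zero
    one_mul := fun x => by rw [a2_mul_comm, a2_mul_one]
    mul_one := a2_mul_one }

instance : Algebra ℂ TA := Algebra.ofModule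
  (fun a x y => by rw [a2_mul_comm, a2_mul_smul, a2_mul_comm]) fun a x y => a2_mul_smul a x y

theorem nm_mul_le {h : ℝ} (h0 : 0 ≤ h) (h1 : h ≤ 1) (x y : TA) :
    nm h (x * y) ≤ 2 ^ 20 * (nm h x * nm h y) := by
  rw [nm, co_mul]
  exact a2_wn_cv (co_SW x) (co_SW y) h0 h1

/-- Multiplication as a bounded bilinear map. -/
def mulT : TA →L[ℂ] TA →L[ℂ] TA :=
  (LinearMap.mul ℂ TA).mkContinuous₂ (2 ^ 20) fun x y => by
    rw [norm_eq_nm, norm_eq_nm, norm_eq_nm, mul_assoc]
    exact nm_mul_le zero_le_one le_rfl x y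

instance : ContinuousMul TA := ⟨mulT.continuous₂⟩

/-- The coefficient functionals. -/
def coL (n : Z12) : TA →L[ℂ] ℂ :=
  LinearMap.mkContinuous ⟨⟨fun x => co x n, fun x y => congrFun (co_add x y) n⟩,
    fun a x => congrFun (co_smul a x) n⟩ 1 fun x => by
      have h1 : ‖x.raw n‖ ≤ ‖x.raw‖ := lp.norm_apply_le_norm (by simp) x.raw n
      have h2 := a2_one_le_Wt (zE n)
      rw [a2_norm_raw] at h1
      have h3 := norm_nonneg (co x n)
      show ‖co x n‖ ≤ 1 * ‖x.raw‖
      nlinarith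

theorem coL_apply (n : Z12) (x : TA) : coL n x = co x n := rfl

/-- Complex conjugation of functions. -/
def sT : TA →L[ℝ] TA :=
  LinearMap.mkContinuous ⟨⟨fun x => mkT (st (co x)) (a2_SW_st (co_SW x)), fun x y => co_ext (by
      funext n
      simp [co_mkT, co_add, st])⟩, fun a x => co_ext (by
      funext n
      simp [co_mkT, ← Complex.coe_smul, co_smul, st])⟩ 1 fun x => by
    show ‖mkT (st (co x)) (a2_SW_st (co_SW x))‖ ≤ _
    rw [norm_eq_nm, norm_eq_nm, nm, nm, co_mkT, a2_wn_st, one_mul]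

theorem co_sT (x : TA) : co (sT x) = st (co x) := co_mkT _ (a2_SW_st (co_SW x))

theorem a2_SW_mu (θ : Z12 → ℝ) (x : TA) : SW fun n => exp (I * θ n) * co x n :=
  a2_SW_le (co_SW x) fun n => by rw [norm_mul, mul_comm I, norm_exp_ofReal_mul_I, one_mul]

/-- Unimodular multipliers. -/
def Mu (θ : Z12 → ℝ) : TA →L[ℂ] TA :=
  LinearMap.mkContinuous ⟨⟨fun x => mkT _ (a2_SW_mu θ x), fun x y => co_ext (by
      funext n
      simp [co_mkT, co_add, mul_add])⟩, fun a x => co_ext (by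
      funext n
      simp [co_mkT, co_smul, mul_left_comm])⟩ 1 fun x => by
    show ‖mkT _ (a2_SW_mu θ x)‖ ≤ _
    rw [norm_eq_nm, norm_eq_nm, nm, nm, co_mkT, one_mul]
    simp only [wn, norm_mul, mul_comm I, norm_exp_ofReal_mul_I, one_mul, le_refl]

theorem co_Mu (θ : Z12 → ℝ) (x : TA) (n : Z12) : co (Mu θ x) n = exp (I * θ n) * co x n :=
  congrFun (co_mkT _ (a2_SW_mu θ x)) n

/-- Discretisation at mesh size one. -/
def D1 : AA →L[ℂ] TA :=
  LinearMap.mkContinuous ⟨⟨fun g => mkT _ (disc_SW one_pos g), fun f g => co_ext (by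
      rw [co_add, co_mkT, co_mkT, co_mkT, disc_add])⟩, fun a g => co_ext (by
      funext n
      obtain ⟨T, hT⟩ := ex_discL 1 n
      simp [co_mkT, co_smul, ← hT])⟩ (2 ^ 60) fun g => by
    show ‖mkT _ (disc_SW one_pos g)‖ ≤ _
    rw [norm_eq_nm, nm, co_mkT]
    exact disc_wn one_pos le_rfl g

theorem co_D1 (g : AA) : co (D1 g) = disc 1 g := co_mkT _ (disc_SW one_pos g)

/-- Discretisation at mesh size `h > 0`, see `co_Dh`. -/
def Dh (h : ℝ) : AA →L[ℂ] TA := D1.comp (Gp 0 0 (-2 * Real.log h) 0)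

/-- The mesh size at rescaled time `s`. -/
def hs (h s : ℝ) : ℝ := h * Real.exp (-s / 2)

/-- The free flow from time `σ` to time `s`. -/
def Eo (ν : ℂ) (h s σ : ℝ) : TA →L[ℂ] TA :=
  exp (-ν * (s - σ)) • Mu fun n => -((Real.exp (-σ) - Real.exp (-s)) * h ^ 2 * nsq n)

/-- The Duhamel integral. -/
def Duh (ν : ℂ) (h : ℝ) (F : ℝ → TA) (s : ℝ) : TA := ∫ σ in (0 : ℝ)..s, Eo ν h s σ (F σ)

/-- `|u|^(2m) u`. -/
def NL (m : ℕ) (x : TA) : TA := (x * sT x) ^ m * x

/-- The real linearisation of `NL m` at `c`. -/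
def NL' (m : ℕ) (c w : TA) : TA :=
  ((m : ℂ) + 1) • ((c * sT c) ^ m * w) + (m : ℂ) • ((c * sT c) ^ (m - 1) * c ^ 2 * sT w)

namespace Hat
variable {m : ℕ} {Q : Prof m} (H : Hat Q)

/-- The discretised potential term. -/
def Bd (h : ℝ) (x : TA) : TA := -I • (Dh h H.V1 * x + Dh h H.V2 * sT x)

/-- The approximate linearised flow of the plane wave `κ e^(i k x)`. -/
def pc (_H : Hat Q) (Z : E12 → ℂ → ℝ → AA) (h : ℝ) (k : Z12) (κ : ℂ) (s : ℝ) : TA :=
  Eo (nu0 m Q.β) h s 0 (sgl k κ) + Dh (hs h s) (Z (h • zE k) κ s)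

/-- Its defect. -/
def df (Z : E12 → ℂ → ℝ → AA) (h : ℝ) (k : Z12) (κ : ℂ) (s : ℝ) : TA :=
  Dh (hs h s) (Z (h • zE k) κ s) -
    Duh (nu0 m Q.β) h (fun σ => H.Bd (hs h σ) (H.pc Z h k κ σ)) s

/-- `V` solves the rescaled equation with mesh size `h` on `[0, N]`. -/
def Sol (_H : Hat Q) (h N : ℝ) (V : ℝ → TA) : Prop :=
  Continuous V ∧ ∀ s ∈ Icc 0 N, V s = Eo (nu0 m Q.β) h s 0 (V 0) +
    Duh (nu0 m Q.β) h (fun σ => -I • NL m (V σ)) s

/-- At time `t` the solution is close to the profile at scale `L`. -/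
def State (U : ℝ → TA) (ε t L : ℝ) : Prop :=
  ∃ (ω : ℂ) (x : E12), ‖ω‖ = L ^ (2 * aa m) ∧
    nm L (ω • Mu (fun n => ⟪zE n, x⟫) (U t) - Dh L H.q) ≤ ε

end Hat

/-- Global solutions with values in `TA`. -/
def USol (m : ℕ) (U : ℝ → TA) : Prop :=
  Continuous U ∧ ∀ t, 0 ≤ t → U t = Mu (fun n => -(nsq n * t)) (U 0) +
    ∫ τ in (0 : ℝ)..t, Mu (fun n => -(nsq n * (t - τ))) (-I • NL m (U τ))

end Vale.Agent.P139
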