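import Vale.Agent.P139.A2.Ap

/-! P139 A2/Unif: uniformity of the discretisation errors on compact sets. -/

noncomputable section

open MeasureTheory Filter Topology Set Complex
open scoped ComplexConjugate RealInnerProductSpace

namespace Vale.Agent.P139

variable {m : ℕ} {Q : Prof m} (H : Hat Q)

theorem a2_unif {K : Set AA} (hK : IsCompact K) {Φ : ℝ → AA → ℝ → Prop} (Lp : ℝ)
    (hL : ∀ h ∈ Ioc (0 : ℝ) 1, ∀ g g' δ δ', Φ h g δ → δ + Lp * ‖g' - g‖ ≤ δ' → Φ h g' δ')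
    (hp : ∀ g, ∀ δ > 0, ∃ h0 > 0, ∀ h ∈ Ioc 0 h0, Φ h g δ) {δ : ℝ} (hδ : 0 < δ) :
    ∃ h0 ∈ Ioc (0 : ℝ) 1, ∀ h ∈ Ioc 0 h0, ∀ g ∈ K, Φ h g δ := by
  refine hK.induction_on (p := fun K => ∃ h0 ∈ Ioc (0 : ℝ) 1, ∀ h ∈ Ioc 0 h0, ∀ g ∈ K, Φ h g δ)
    ⟨1, by simp, by simp⟩ ?_ ?_ fun g _ => ?_
  · rintro s t hst ⟨h0, h1, h2⟩
    exact ⟨h0, h1, fun h hh g hg => h2 h hh g (hst hg)⟩
  · rintro s t ⟨h1, hh1, H1⟩ ⟨h2, hh2, H2⟩
    exact ⟨min h1 h2, ⟨lt_min hh1.1 hh2.1, (min_le_left _ _).trans hh1.2⟩, fun h hh g hg =>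
      hg.elim (H1 h ⟨hh.1, hh.2.trans (min_le_left _ _)⟩ g)
        (H2 h ⟨hh.1, hh.2.trans (min_le_right _ _)⟩ g)⟩
  · obtain ⟨h0, h1, h2⟩ := hp g _ (half_pos hδ)
    have hr : 0 < δ / 2 / (|Lp| + 1) := by positivity
    refine ⟨_, mem_nhdsWithin_of_mem_nhds (Metric.ball_mem_nhds g hr), min h0 1,
      ⟨lt_min h1 one_pos, min_le_right _ _⟩, fun h hh g' hg' => ?_⟩
    refine hL h ⟨hh.1, hh.2.trans (min_le_right _ _)⟩ g g' _ _
      (h2 h ⟨hh.1, hh.2.trans (min_le_left _ _)⟩) ?_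
    rw [mem_ball_iff_norm, lt_div_iff₀ (by positivity)] at hg'
    nlinarith [mul_le_mul_of_nonneg_right (le_abs_self Lp) (norm_nonneg (g' - g)),
      norm_nonneg (g' - g)]

theorem a2_Sg_unif {ν : ℂ} (hν : 0 ≤ ν.re) {K : Set AA} (hK : IsCompact K) (N : ℝ) {δ : ℝ}
    (hδ : 0 < δ) : ∃ h0 ∈ Ioc (0 : ℝ) 1, ∀ h ∈ Ioc 0 h0, ∀ g ∈ K, ∀ σ s : ℝ, 0 ≤ σ → σ ≤ s → s ≤ N →
      nm (hs h s) (Dh (hs h s) (Sg ν (s - σ) g) - Eo ν h s σ (Dh (hs h σ) g)) ≤ δ := by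
  refine a2_unif hK (Φ := fun h g δ => ∀ σ s : ℝ, 0 ≤ σ → σ ≤ s → s ≤ N →
      nm (hs h s) (Dh (hs h s) (Sg ν (s - σ) g) - Eo ν h s σ (Dh (hs h σ) g)) ≤ δ)
    (2 ^ 60 + 2 ^ 60) ?_ (fun g δ hδ => ?_) hδ
  · intro h hh g g' δ δ' h1 h2 σ s h3 h4 h5
    have ms := hs_mem hh (h3.trans h4)
    have b1 := (nm_Dh ms _).trans (mul_le_mul_of_nonneg_left ((norm_Sg ν (sub_nonneg.2 h4)
      (g' - g)).trans (mul_le_of_le_one_left (norm_nonneg _) (Real.exp_le_one_iff.2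
        (by nlinarith)))) (by positivity))
    have b2 := (nm_Eo hν hh.1.le hh.2 h3 h4 _).trans (nm_Dh (hs_mem hh h3) (g' - g))
    have := (nm_add_le ms.1.le ms.2 _ _).trans (add_le_add (h1 σ s h3 h4 h5)
      ((nm_sub_le ms.1.le ms.2 _ _).trans (add_le_add b1 b2)))
    rw [← add_mul] at this
    refine le_trans (le_of_eq ?_) (this.trans h2)
    simp only [map_sub]
    congr 1
    abel
  · obtain ⟨h0, h1, h2⟩ := disc_Sg ν g N hδ
    refine ⟨h0, h1, fun h hh σ s h3 h4 h5 => ?_⟩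
    have := h2 _ (hs_mem hh h3) (s - σ) ⟨by linarith, by linarith⟩
    rw [show hs h σ * Real.exp (-(s - σ) / 2) = hs h s from hs_hs h s σ] at this
    refine le_trans (le_of_eq ?_) this
    rw [nm, co_sub, co_Dh (hs_pos hh.1 s)]
    congr 2
    funext n
    have e : (1 - Real.exp (-(s - σ))) * hs h σ ^ 2 = (Real.exp (-σ) - Real.exp (-s)) * h ^ 2 := by
      have e1 : Real.exp (-σ / 2) ^ 2 = Real.exp (-σ) := by
        rw [← Real.exp_nat_mul]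
        congr 1
        push_cast
        ring
      have e2 : Real.exp (-(s - σ)) * Real.exp (-σ) = Real.exp (-s) := by
        rw [← Real.exp_add]
        congr 1
        ring
      rw [hs, mul_pow, e1, ← e2]
      ring
    rw [co_Eo, co_Dh (hs_pos hh.1 σ), e, ofReal_sub]

theorem Hat.a2_B_unif {K : Set AA} (hK : IsCompact K) {δ : ℝ} (hδ : 0 < δ) :
    ∃ h0 ∈ Ioc (0 : ℝ) 1, ∀ h ∈ Ioc 0 h0, ∀ z ∈ K,
      nm h (Dh h (H.B z) - H.Bd h (Dh h z)) ≤ δ := by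
  refine a2_unif hK (Φ := fun h z δ => nm h (Dh h (H.B z) - H.Bd h (Dh h z)) ≤ δ)
    (2 ^ 60 * (‖conv H.V1‖ + ‖conv H.V2‖) + H.CB * 2 ^ 60) ?_ (fun g δ hδ => ?_) hδ
  · intro h hh g g' δ δ' h1 h2
    have b0 : ‖H.B (g' - g)‖ ≤ (‖conv H.V1‖ + ‖conv H.V2‖) * ‖g' - g‖ := by
      rw [Hat.B, norm_smul, norm_neg, norm_I, one_mul, add_mul]
      refine (norm_add_le _ _).trans (add_le_add ((conv H.V1).le_opNorm _) ?_)
      exact ((conv H.V2).le_opNorm _).trans_eq (by rw [norm_cj])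
    have b1 := (nm_Dh hh _).trans (mul_le_mul_of_nonneg_left b0 (by positivity))
    have b2 := (H.nm_Bd hh _).trans (mul_le_mul_of_nonneg_left (nm_Dh hh (g' - g)) H.CB_nonneg)
    have := (nm_add_le hh.1.le hh.2 _ _).trans (add_le_add h1
      ((nm_sub_le hh.1.le hh.2 _ _).trans (add_le_add b1 b2)))
    rw [← mul_assoc, ← mul_assoc, ← add_mul] at this
    refine le_trans (le_of_eq ?_) (this.trans h2)
    have e : H.B (g' - g) = H.B g' - H.B g := by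
      simp only [Hat.B, map_sub, smul_add, smul_sub]
      abel
    rw [e, map_sub, map_sub, H.Bd_sub]
    congr 1
    abel
  · obtain ⟨h0, h1, h2⟩ := ((((Ap.refl H.V1).conv (Ap.refl g)).add
      ((Ap.refl H.V2).conv (Ap.refl g).cj)).smul (-I)).le hδ
    exact ⟨h0, h1.1, h2⟩

end Vale.Agent.P139
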